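import Vale.Agent.P098.S1.E.BdA

/-!
P098 S1/E/BdB (TASK): bounds for `φ` and its derivative.  Prefix helper names by `bdB_`.
`J x = (p x, u x / ‖x‖, ‖x‖ • D2 u x)` stays in a closed ball `K` of a finite dimensional space (`pc_lin`, `h.bd`); `Φ` and `fderiv Φ` are bounded on `K`.
`fderiv φ x = (fderiv Φ (J x)).comp (fderiv J x)`, and `‖x‖ * ‖fderiv J x a‖ ≤ C' ‖a‖` componentwise (`Prod.norm_def`): `norm_fderiv_grad`;
`HasFDerivAt` of `u y * ‖y‖⁻¹` and `‖y‖ • D2 u y` from `hasFDerivAt_rad` (with `f = fun s => s⁻¹`, `f = id`), `.mul`, `.smul`.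
-/

open MeasureTheory Filter Topology Set Metric
open scoped ContDiff RealInnerProductSpace NNReal

set_option maxSynthPendingDepth 3

noncomputable section

namespace Vale.Agent.P098.SE

variable {d : ℕ}

theorem bdB_ball {F : Type} [NormedAddCommGroup F] [NormedSpace ℝ F] [FiniteDimensional ℝ F]
    {Φ : F → ℝ} (hΦ : ContDiff ℝ ∞ Φ) (R : ℝ) :
    ∃ M : ℝ, 0 ≤ M ∧ ∀ p, ‖p‖ ≤ R → |Φ p| ≤ M ∧ ‖fderiv ℝ Φ p‖ ≤ M := by
  have := FiniteDimensional.proper_real F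
  obtain ⟨M1, h1⟩ := (isCompact_closedBall (0 : F) R).exists_bound_of_continuousOn
    hΦ.continuous.continuousOn
  obtain ⟨M2, h2⟩ := (isCompact_closedBall (0 : F) R).exists_bound_of_continuousOn
    (hΦ.continuous_fderiv (by simp)).continuousOn
  refine ⟨max 0 (max M1 M2), le_max_left _ _, fun p hp => ⟨?_, ?_⟩⟩
  · exact (h1 p (mem_closedBall_zero_iff.2 hp)).trans
      ((le_max_left _ _).trans (le_max_right _ _))
  · exact (h2 p (mem_closedBall_zero_iff.2 hp)).trans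
      ((le_max_right _ _).trans (le_max_right _ _))

theorem bdB_smul {F : Type} [NormedAddCommGroup F] [NormedSpace ℝ F] {g : E d → F}
    {g' : E d →L[ℝ] F} {x : E d} (hx : x ≠ 0) (hg : HasFDerivAt g g' x) :
    ∃ A : E d →L[ℝ] F, HasFDerivAt (fun y => ‖y‖ • g y) A x ∧ ‖A‖ ≤ ‖x‖ * ‖g'‖ + ‖g x‖ := by
  have hn : 0 < ‖x‖ := norm_pos_iff.2 hx
  have h1 : HasFDerivAt (fun y : E d => ‖y‖) ((1 / ‖x‖) • innerSL ℝ x) x :=
    hasFDerivAt_rad (f := id) hx (hasDerivAt_id _)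
  refine ⟨_, h1.smul hg, (norm_add_le _ _).trans (add_le_add ?_ ?_)⟩
  · rw [norm_smul, norm_norm]
  · rw [ContinuousLinearMap.norm_smulRight_apply, norm_smul, innerSL_apply_norm, Real.norm_eq_abs,
      abs_of_pos (by positivity), one_div_mul_cancel hn.ne', one_mul]

theorem bdB_div {u : E d → ℝ} {u' : E d →L[ℝ] ℝ} {x : E d} {L : ℝ} (hx : x ≠ 0)
    (hu : HasFDerivAt u u' x) (h1 : ‖u'‖ ≤ L) (h2 : |u x| ≤ L * ‖x‖) :
    ∃ A : E d →L[ℝ] ℝ, HasFDerivAt (fun y => u y / ‖y‖) A x ∧ ‖x‖ * ‖A‖ ≤ 2 * L := by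
  have hn : 0 < ‖x‖ := norm_pos_iff.2 hx
  have h3 : HasFDerivAt (fun y : E d => ‖y‖⁻¹) ((-(‖x‖ ^ 2)⁻¹ / ‖x‖) • innerSL ℝ x) x :=
    hasFDerivAt_rad (f := fun s => s⁻¹) hx (hasDerivAt_inv hn.ne')
  refine ⟨u x • ((-(‖x‖ ^ 2)⁻¹ / ‖x‖) • innerSL ℝ x) + ‖x‖⁻¹ • u', ?_, ?_⟩
  · simp only [div_eq_mul_inv (u _)]
    exact hu.mul h3
  · have e1 : ‖u x • ((-(‖x‖ ^ 2)⁻¹ / ‖x‖) • innerSL ℝ x)‖ = |u x| * (‖x‖ ^ 2)⁻¹ := by
      rw [norm_smul, norm_smul, innerSL_apply_norm, Real.norm_eq_abs, Real.norm_eq_abs, abs_div,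
        abs_neg, abs_of_pos hn, abs_of_pos (by positivity : 0 < (‖x‖ ^ 2)⁻¹),
        div_mul_cancel₀ _ hn.ne']
    have e2 : ‖‖x‖⁻¹ • u'‖ = ‖x‖⁻¹ * ‖u'‖ := by
      rw [norm_smul, norm_inv, norm_norm]
    have e3 : ‖x‖ * (|u x| * (‖x‖ ^ 2)⁻¹) ≤ L := by
      have : ‖x‖ * (|u x| * (‖x‖ ^ 2)⁻¹) = |u x| / ‖x‖ := by field_simp
      rw [this, div_le_iff₀ hn]
      exact h2
    have e4 : ‖x‖ * (‖x‖⁻¹ * ‖u'‖) ≤ L := by
      rw [← mul_assoc, mul_inv_cancel₀ hn.ne', one_mul]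
      exact h1
    refine (mul_le_mul_of_nonneg_left (norm_add_le _ _) hn.le).trans ?_
    rw [e1, e2, mul_add]
    linarith

theorem bdB_chain {F G H : Type} [NormedAddCommGroup F] [NormedSpace ℝ F] [NormedAddCommGroup G]
    [NormedSpace ℝ G] [NormedAddCommGroup H] [NormedSpace ℝ H] {Φ : F × G × H → ℝ}
    {f : E d → F} {g : E d → G} {k : E d → H} {x : E d} {f' : E d →L[ℝ] F} {g' : E d →L[ℝ] G}
    {k' : E d →L[ℝ] H} (hΦ : DifferentiableAt ℝ Φ (f x, g x, k x)) (hf : HasFDerivAt f f' x)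
    (hg : HasFDerivAt g g' x) (hk : HasFDerivAt k k' x) {M a b c : ℝ} (hM0 : 0 ≤ M)
    (hM : ‖fderiv ℝ Φ (f x, g x, k x)‖ ≤ M) (ha : ‖x‖ * ‖f'‖ ≤ a) (hb : ‖x‖ * ‖g'‖ ≤ b)
    (hc : ‖x‖ * ‖k'‖ ≤ c) :
    ‖x‖ * ‖fderiv ℝ (fun y => Φ (f y, g y, k y)) x‖ ≤ M * max a (max b c) := by
  have h1 : HasFDerivAt (fun y => Φ (f y, g y, k y))
      ((fderiv ℝ Φ (f x, g x, k x)).comp (f'.prod (g'.prod k'))) x :=
    hΦ.hasFDerivAt.comp x (hf.prodMk (hg.prodMk hk))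
  have h2 : ‖x‖ * ‖f'.prod (g'.prod k')‖ ≤ max a (max b c) := by
    rw [ContinuousLinearMap.opNorm_prod, Prod.norm_def]
    dsimp only
    rw [ContinuousLinearMap.opNorm_prod, Prod.norm_def, mul_max_of_nonneg _ _ (norm_nonneg x),
      mul_max_of_nonneg _ _ (norm_nonneg x)]
    exact max_le_max ha (max_le_max hb hc)
  rw [h1.fderiv]
  calc ‖x‖ * ‖(fderiv ℝ Φ (f x, g x, k x)).comp (f'.prod (g'.prod k'))‖
      ≤ ‖x‖ * (M * ‖f'.prod (g'.prod k')‖) :=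
        mul_le_mul_of_nonneg_left ((ContinuousLinearMap.opNorm_comp_le _ _).trans
          (mul_le_mul_of_nonneg_right hM (norm_nonneg _))) (norm_nonneg _)
    _ = M * (‖x‖ * ‖f'.prod (g'.prod k')‖) := by ring
    _ ≤ M * max a (max b c) := mul_le_mul_of_nonneg_left h2 hM0

theorem bd_phi {Φ : E d × ℝ × B2 d → ℝ} (hΦ : ContDiff ℝ ∞ Φ) {u : E d → ℝ} (h : PreCone u) :
    ∃ C : ℝ, ∀ x, 0 < u x → |phiOf Φ u x| ≤ C ∧ ‖x‖ * ‖fderiv ℝ (phiOf Φ u) x‖ ≤ C := by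
  obtain ⟨L, hL⟩ := pc_lin h
  obtain ⟨C, hC⟩ := h.bd
  have hL0 : 0 ≤ L := (norm_nonneg _).trans (hL 0).1
  obtain ⟨M, hM0, hM⟩ := bdB_ball hΦ (max L C)
  refine ⟨max M (M * max C (max (2 * L) (2 * C))), fun x hx => ?_⟩
  have hx0 := pc_ne h hx
  have hn : 0 < ‖x‖ := norm_pos_iff.2 hx0
  have hs : ContDiffAt ℝ ∞ u x := (h.harm x hx).1
  have hJ : ‖((gradient u x, u x / ‖x‖, ‖x‖ • D2 u x) : E d × ℝ × B2 d)‖ ≤ max L C := by
    rw [Prod.norm_def, Prod.norm_def]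
    refine max_le ((hL x).1.trans (le_max_left _ _)) (max_le (le_trans ?_ (le_max_left _ _))
      (le_trans ?_ (le_max_right _ _)))
    · show ‖u x / ‖x‖‖ ≤ L
      rw [Real.norm_eq_abs, abs_div, abs_of_pos hn, div_le_iff₀ hn]
      exact (hL x).2
    · show ‖‖x‖ • D2 u x‖ ≤ C
      rw [norm_smul, norm_norm]
      exact (hC x hx).1
  obtain ⟨m1, m2⟩ := hM _ hJ
  refine ⟨m1.trans (le_max_left _ _), le_trans ?_ (le_max_right _ _)⟩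
  have d1 : HasFDerivAt (gradient u) (fderiv ℝ (gradient u) x) x :=
    ((s1_contDiffAt_grad hs).differentiableAt (by simp)).hasFDerivAt
  have n1 : ‖x‖ * ‖fderiv ℝ (gradient u) x‖ ≤ C :=
    (mul_le_mul_of_nonneg_left (norm_fderiv_grad hs) hn.le).trans (hC x hx).1
  obtain ⟨A2, d2, n2⟩ := bdB_div hx0 (hs.differentiableAt (by simp)).hasFDerivAt
    ((norm_grad u x).symm.le.trans (hL x).1) (hL x).2
  have d3' : HasFDerivAt (D2 u) (D3 u x) x :=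
    ((s1_contDiffAt_D2 hs).differentiableAt (by simp)).hasFDerivAt
  obtain ⟨A3, d3, n3⟩ := bdB_smul hx0 d3'
  have n3' : ‖x‖ * ‖A3‖ ≤ 2 * C := by
    have e1 := (hC x hx).1
    have e2 := (hC x hx).2
    have e3 : ‖x‖ * ‖A3‖ ≤ ‖x‖ * (‖x‖ * ‖D3 u x‖ + ‖D2 u x‖) :=
      mul_le_mul_of_nonneg_left n3 hn.le
    nlinarith
  exact bdB_chain (hΦ.differentiable (by simp) _) d1 d2 d3 hM0 m2 n1 n2 n3'

end Vale.Agent.P098.SE
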