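import Vale.Agent.P098.S1.E.Jet

/-!
P098 S1/E/Bdry (TASK): the boundary inequality up to a small error.  Prefix helper names by `bdry_`.
Take `C` from `h.bd`, `ε` from `jet_cpt c C hη`, `ε' = min η (ε / (1 + |b|) ^ 2)`, `δ'` from `h.bc ε' _ a b`, `δ = min δ' (ε * a)`.
Apply `jet_cpt` to `θ = ‖x‖⁻¹ • x`, `ν = p x`, `r = u x / ‖x‖`, `S = ‖x‖ • D2 u x`, `T = ‖x‖ ^ 2 • D3 u x` (`s1_euler1`, `s1_euler2`, `s1_hj` with `pc_open`, `h.harm`; `sqf (t • S) v w = t ^ 2 * sqf S v w`, `tr (t • S) = t * tr S`).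
`BC.g2` and `‖p‖ ≤ 1` give `2 * m * u ≤ ε' * u`, so `m ≤ ε'`.
-/

open MeasureTheory Filter Topology Set Metric
open scoped ContDiff RealInnerProductSpace NNReal

set_option maxSynthPendingDepth 3

noncomputable section

namespace Vale.Agent.P098.SE

variable {d : ℕ}

theorem bdry_app2 (t : ℝ) (S : B2 d) (v w : E d) : (t • S) v w = t * S v w := rfl

theorem bdry_app3 (t : ℝ) (T : B3 d) (a v w : E d) : (t • T) a v w = t * T a v w := rfl

theorem bdry_sqf (t : ℝ) (S : B2 d) (v w : E d) : sqf (t • S) v w = t ^ 2 * sqf S v w := by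
  unfold sqf
  rw [Finset.mul_sum]
  refine Finset.sum_congr rfl fun i _ => ?_
  rw [bdry_app2, bdry_app2]
  ring

theorem bdry_hj {j : Jet d} (h : HJ j) (t t' : ℝ) (l : B1 d) :
    HJ (0, l, t • j.2.2.1, t' • j.2.2.2) := by
  refine ⟨fun v w => ?_, fun a v w => ?_, fun a v w => ?_, ?_, fun a => ?_⟩
  · show t * j.2.2.1 v w = t * j.2.2.1 w v
    rw [h.s2 v w]
  · show t' * j.2.2.2 a v w = t' * j.2.2.2 v a w
    rw [h.s3 a v w]
  · show t' * j.2.2.2 a v w = t' * j.2.2.2 a w v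
    rw [h.s3' a v w]
  · show ∑ i, t * j.2.2.1 (bv i) (bv i) = 0
    have h2 : ∑ i, j.2.2.1 (bv i) (bv i) = 0 := h.t2
    rw [← Finset.mul_sum, h2, mul_zero]
  · show ∑ i, t' * j.2.2.2 a (bv i) (bv i) = 0
    have h2 : ∑ i, j.2.2.2 a (bv i) (bv i) = 0 := h.t3 a
    rw [← Finset.mul_sum, h2, mul_zero]

theorem bdry_approx (c : Cert d) {u : E d → ℝ} (h : PreCone u)
    (hg : ∀ x, 0 < u x → ‖gradient u x‖ ≤ 1) :
    ∀ η : ℝ, 0 < η → ∀ a b : ℝ, 0 < a → ∃ δ : ℝ, 0 < δ ∧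
      ∀ x, a ≤ ‖x‖ → ‖x‖ ≤ b → 0 < u x → u x < δ →
        -η ≤ ⟪fldOf c.X u x, gradient u x⟫ - ‖x‖ * mc u x * phiOf c.Φ u x ∧ mc u x ≤ η ∧
          |‖gradient u x‖ - 1| ≤ η := by
  intro η hη a b ha
  obtain ⟨C, hC⟩ := h.bd
  obtain ⟨ε, hε, hj⟩ := jet_cpt c C hη
  have hB : 1 ≤ 1 + |b| := by linarith [abs_nonneg b]
  obtain ⟨ε', hε', he1, he2⟩ : ∃ ε' : ℝ, 0 < ε' ∧ ε' ≤ η ∧ (1 + |b|) ^ 2 * ε' ≤ ε := by
    refine ⟨min η (ε / (1 + |b|) ^ 2), lt_min hη (by positivity), min_le_left _ _, ?_⟩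
    rw [mul_comm, ← le_div_iff₀ (by positivity)]
    exact min_le_right _ _
  obtain ⟨δ', hδ', hbc⟩ := h.bc ε' hε' a b ha
  refine ⟨min δ' (ε * a), lt_min hδ' (by positivity), fun x hax hxb hx hxd => ?_⟩
  have hB' := hbc x hax hxb hx (hxd.trans_le (min_le_left _ _))
  have hua : u x < ε * a := hxd.trans_le (min_le_right _ _)
  have hR : 0 < ‖x‖ := ha.trans_le hax
  have hRB : ‖x‖ ≤ 1 + |b| := by linarith [le_abs_self b]
  have hsm := (h.harm x hx).1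
  have k0 : ε' ≤ ε :=
    le_trans (le_mul_of_one_le_left hε'.le (one_le_pow₀ hB)) he2
  have k1 : ‖x‖ * ε' ≤ ε := by
    refine le_trans (mul_le_mul_of_nonneg_right ?_ hε'.le) he2
    nlinarith
  have k2 : ‖x‖ ^ 2 * ε' ≤ ε :=
    le_trans (mul_le_mul_of_nonneg_right (pow_le_pow_left₀ hR.le hRB 2) hε'.le) he2
  have hm : mc u x ≤ ε' := by
    have g2 := (abs_le.1 hB'.g2).2
    have g3 : ‖gradient u x‖ ^ 2 ≤ 1 := pow_le_one₀ (norm_nonneg _) (hg x hx)
    have g4 : mc u x * u x ≤ ε' * u x := by nlinarith [mul_pos hε' hx]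
    exact le_of_mul_le_mul_right g4 hx
  refine ⟨?_, hm.trans he1, hB'.g1.trans he1⟩
  have hmc : (‖x‖ • D2 u x) (gradient u x) (gradient u x) = ‖x‖ * mc u x := rfl
  have key := hj (‖x‖⁻¹ • x) (gradient u x) (u x / ‖x‖) (‖x‖ • D2 u x) (‖x‖ ^ 2 • D3 u x)
    (by rw [norm_smul, norm_inv, norm_norm, inv_mul_cancel₀ hR.ne'])
    (by rw [real_inner_smul_left, real_inner_comm, s1_euler1 h.hom hsm, div_eq_inv_mul])
    (by
      ext v
      rw [bdry_app2, map_smul, s1_euler2 h.hom hsm]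
      simp)
    (bdry_hj (s1_hj (pc_open h) h.harm hx) _ _ _)
    (by rw [norm_smul, norm_norm]; exact (hC x hx).1)
    (by rw [norm_smul, norm_pow, norm_norm]; exact (hC x hx).2)
    (hB'.g1.trans k0)
    (by
      rw [abs_of_pos (div_pos hx hR), div_le_iff₀ hR]
      exact hua.le.trans (mul_le_mul_of_nonneg_left hax hε.le))
    (by rw [hmc]; exact (mul_le_mul_of_nonneg_left hm hR.le).trans k1)
    (fun v => by
      rw [hmc, bdry_app2, mul_assoc, ← mul_sub, abs_mul, abs_of_pos hR]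
      refine (mul_le_mul_of_nonneg_left (hB'.s v) hR.le).trans ?_
      rw [← mul_assoc]
      exact mul_le_mul_of_nonneg_right k1 (norm_nonneg _))
    (fun v w hv hw => by
      have e : (‖x‖ ^ 2 • D3 u x) (gradient u x) v w + sqf (‖x‖ • D2 u x) v w -
          (‖x‖ • D2 u x) (gradient u x) (gradient u x) * (‖x‖ • D2 u x) v w =
          ‖x‖ ^ 2 * (D3 u x (gradient u x) v w + sqf (D2 u x) v w - mc u x * D2 u x v w) := by
        rw [hmc, bdry_app2, bdry_app3, bdry_sqf]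
        ring
      rw [e, abs_mul, abs_of_pos (pow_pos hR 2)]
      refine (mul_le_mul_of_nonneg_left (hB'.t v w hv hw) (pow_pos hR 2).le).trans ?_
      rw [← mul_assoc, ← mul_assoc]
      exact mul_le_mul_of_nonneg_right (mul_le_mul_of_nonneg_right k2 (norm_nonneg _))
        (norm_nonneg _))
  rw [hmc] at key
  exact key

end Vale.Agent.P098.SE
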