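import Vale.Agent.P098.S1.E.Defs

/-!
P098 S1/E/Cut (TASK): long radial cutoffs.  Prefix helper names by `cut_`.
`s = Real.smoothTransition`, `|deriv s| ≤ L` (continuous, zero off `[0, 1]`).  For `N ≥ 2` put `k r = s (r - 1) * s (2 - r / N)`: zero for `r ≤ 1` or `2 N ≤ r`, one on `[2, N]`;
`|r * deriv k r| ≤ 2 L` on `[1, 2]` and on `[N, 2 N]`, and `deriv k r = 0` elsewhere.  So the second integrand is at most `c * (indicator (Icc 1 2) 1 + N⁻¹ * indicator (Icc N (2 N)) 1)`, `c = 2 L + 4 L²`, integral `≤ 2 c`;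
the first integrand is continuous on `Ioi 0` with support in `[1, 2 N]` (integrable), nonnegative, and equals `r⁻¹` on `[2, N]`, so the integral is `≥ log (N / 2)` (`integral_inv`, `setIntegral_mono_set`); take `N = 2 * exp |M|`.
-/

open MeasureTheory Filter Topology Set Metric
open scoped ContDiff RealInnerProductSpace NNReal

set_option maxSynthPendingDepth 3

noncomputable section

namespace Vale.Agent.P098.SE

variable {d : ℕ}

theorem cut_zero {x : ℝ} (h : x < 0 ∨ 1 < x) : deriv Real.smoothTransition x = 0 := by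
  rcases h with h | h
  · have : Real.smoothTransition =ᶠ[𝓝 x] fun _ => 0 :=
      (eventually_lt_nhds h).mono fun _ h' => Real.smoothTransition.zero_of_nonpos h'.le
    rw [this.deriv_eq, deriv_const]
  · have : Real.smoothTransition =ᶠ[𝓝 x] fun _ => 1 :=
      (eventually_gt_nhds h).mono fun _ h' => Real.smoothTransition.one_of_one_le h'.le
    rw [this.deriv_eq, deriv_const]

theorem cut_bound : ∃ L : ℝ, 0 ≤ L ∧ ∀ x, |deriv Real.smoothTransition x| ≤ L := by
  obtain ⟨L, hL⟩ := (isCompact_Icc (a := (0 : ℝ)) (b := 1)).exists_bound_of_continuousOn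
    ((Real.smoothTransition.contDiff (n := 1)).continuous_deriv le_rfl).continuousOn
  have h0 : 0 ≤ L := (norm_nonneg _).trans (hL 0 (by simp))
  refine ⟨L, h0, fun x => ?_⟩
  by_cases h : x ∈ Icc (0 : ℝ) 1
  · exact hL x h
  · rw [cut_zero (by simpa only [mem_Icc, not_and_or, not_le] using h), abs_zero]
    exact h0

theorem cut_ind (a b c : ℝ) : Integrable ((Icc a b).indicator fun _ : ℝ => c) :=
  (integrable_indicator_iff measurableSet_Icc).2 (integrableOn_const measure_Icc_lt_top.ne)

theorem cut_der {L N r : ℝ} (h0 : 0 ≤ L) (hL : ∀ x, |deriv Real.smoothTransition x| ≤ L) (hN : 0 < N)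
    (hr : 0 < r) {D : ℝ}
    (hD : D = deriv (fun r => Real.smoothTransition (r - 1) * Real.smoothTransition (2 - r / N)) r) :
    |r * D| ≤ 4 * L ∧ (r ∉ Icc 1 2 → r ∉ Icc N (2 * N) → D = 0) := by
  have hs : ∀ x, HasDerivAt Real.smoothTransition (deriv Real.smoothTransition x) x := fun x =>
    ((Real.smoothTransition.contDiff (n := 1)).differentiable one_ne_zero x).hasDerivAt
  have h1 := ((hs (r - 1)).comp_sub_const r 1).mul
    ((hs (2 - r / N)).comp r (((hasDerivAt_id r).div_const N).const_sub 2))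
  have e : D = deriv Real.smoothTransition (r - 1) * Real.smoothTransition (2 - r / N) +
      Real.smoothTransition (r - 1) * (deriv Real.smoothTransition (2 - r / N) * -(1 / N)) :=
    hD.trans h1.deriv
  have hs1 : ∀ x, |Real.smoothTransition x| ≤ 1 := fun x => by
    rw [abs_of_nonneg (Real.smoothTransition.nonneg x)]
    exact Real.smoothTransition.le_one x
  have z1 : r ∉ Icc 1 2 → deriv Real.smoothTransition (r - 1) = 0 := fun h => cut_zero (by
    rw [mem_Icc, not_and_or, not_le, not_le] at h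
    exact h.imp (fun h => by linarith) fun h => by linarith)
  have z2 : r ∉ Icc N (2 * N) → deriv Real.smoothTransition (2 - r / N) = 0 := fun h => cut_zero (by
    rw [mem_Icc, not_and_or, not_le, not_le] at h
    exact h.symm.imp (fun h => by linarith [(lt_div_iff₀ hN).2 h])
      fun h => by linarith [(div_lt_one hN).2 h])
  refine ⟨?_, fun a b => by rw [e, z1 a, z2 b]; ring⟩
  have b1 : |r * deriv Real.smoothTransition (r - 1)| ≤ 2 * L := by
    by_cases h : r ∈ Icc (1 : ℝ) 2
    · rw [abs_mul, abs_of_pos hr]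
      exact mul_le_mul h.2 (hL _) (abs_nonneg _) two_pos.le
    · rw [z1 h, mul_zero, abs_zero]
      positivity
  have b2 : |r / N * deriv Real.smoothTransition (2 - r / N)| ≤ 2 * L := by
    by_cases h : r ∈ Icc N (2 * N)
    · rw [abs_mul, abs_of_pos (div_pos hr hN)]
      exact mul_le_mul ((div_le_iff₀ hN).2 h.2) (hL _) (abs_nonneg _) two_pos.le
    · rw [z2 h, mul_zero, abs_zero]
      positivity
  have e2 : r * D = r * deriv Real.smoothTransition (r - 1) * Real.smoothTransition (2 - r / N) -
      r / N * deriv Real.smoothTransition (2 - r / N) * Real.smoothTransition (r - 1) := by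
    rw [e]
    ring
  rw [e2]
  refine (abs_sub _ _).trans ?_
  rw [abs_mul _ (Real.smoothTransition _), abs_mul _ (Real.smoothTransition _)]
  linarith [mul_le_mul b1 (hs1 (2 - r / N)) (abs_nonneg _) (by positivity),
    mul_le_mul b2 (hs1 (r - 1)) (abs_nonneg _) (by positivity)]

theorem exists_cut : ∃ C : ℝ, ∀ M : ℝ, ∃ k, Cut k ∧ M ≤ ∫ r in Ioi (0 : ℝ), r⁻¹ * k r ^ 2 ∧
    ∫ r in Ioi (0 : ℝ), r⁻¹ * (|r * deriv k r| + (r * deriv k r) ^ 2) ≤ C := by
  obtain ⟨L, h0, hL⟩ := cut_bound
  obtain ⟨c, hc⟩ : ∃ c, c = 4 * L + (4 * L) ^ 2 := ⟨_, rfl⟩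
  have hc0 : 0 ≤ c := by
    rw [hc]
    positivity
  refine ⟨2 * c, fun M => ?_⟩
  obtain ⟨N, hN⟩ : ∃ N, N = 2 * Real.exp |M| := ⟨_, rfl⟩
  have h2 : 2 ≤ N := by linarith [Real.one_le_exp (abs_nonneg M)]
  have hN0 : 0 < N := by linarith
  obtain ⟨k, hk⟩ : ∃ k : ℝ → ℝ,
    k = fun r => Real.smoothTransition (r - 1) * Real.smoothTransition (2 - r / N) := ⟨_, rfl⟩
  have hcut : Cut k ∧ ∀ r, r ≤ 1 ∨ 2 * N ≤ r → k r = 0 := by
    have hz : ∀ r, r ≤ 1 ∨ 2 * N ≤ r → k r = 0 := by
      rw [hk]
      rintro r (h | h)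
      · exact mul_eq_zero_of_left (Real.smoothTransition.zero_of_nonpos (by linarith)) _
      · exact mul_eq_zero_of_right _ (Real.smoothTransition.zero_of_nonpos
          (by linarith [(le_div_iff₀ hN0).2 h]))
    refine ⟨⟨?_, fun r => ?_, fun r => ?_, 1, 2 * N, one_pos, hz⟩, hz⟩ <;> rw [hk]
    · exact (Real.smoothTransition.contDiff.comp (by fun_prop)).mul
        (Real.smoothTransition.contDiff.comp (by fun_prop))
    · exact mul_nonneg (Real.smoothTransition.nonneg _) (Real.smoothTransition.nonneg _)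
    · exact mul_le_one₀ (Real.smoothTransition.le_one _) (Real.smoothTransition.nonneg _)
        (Real.smoothTransition.le_one _)
  refine ⟨k, hcut.1, ?_, ?_⟩
  · have hp : 0 ≤ᵐ[volume.restrict (Ioi (0 : ℝ))] fun r : ℝ => r⁻¹ * k r ^ 2 :=
      ae_restrict_of_forall_mem measurableSet_Ioi fun r hr =>
        mul_nonneg (inv_pos.2 hr).le (sq_nonneg _)
    have hi : IntegrableOn (fun r : ℝ => r⁻¹ * k r ^ 2) (Ioi 0) := by
      refine (cut_ind 1 (2 * N) 1).integrableOn.mono'
        (measurable_inv.mul (hcut.1.sm.continuous.measurable.pow_const 2)).aestronglyMeasurable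
        (ae_restrict_of_forall_mem measurableSet_Ioi fun r hr => ?_)
      rw [Real.norm_of_nonneg (mul_nonneg (inv_pos.2 hr).le (sq_nonneg _))]
      by_cases h : r ∈ Icc 1 (2 * N)
      · rw [indicator_of_mem h]
        exact mul_le_one₀ (inv_le_one_of_one_le₀ h.1) (sq_nonneg _)
          (pow_le_one₀ (hcut.1.nn r) (hcut.1.le r))
      · rw [indicator_of_notMem h, hcut.2 r (by
          rw [mem_Icc, not_and_or, not_le, not_le] at h
          exact h.imp le_of_lt le_of_lt)]
        simp
    refine le_trans ?_ (setIntegral_mono_set (s := Ioc 2 N) hi hp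
      (HasSubset.Subset.eventuallyLE fun r hr => two_pos.trans hr.1))
    have e : ∫ r in Ioc 2 N, r⁻¹ * k r ^ 2 = ∫ r in Ioc 2 N, r⁻¹ :=
      setIntegral_congr_fun measurableSet_Ioc fun r hr => by
        simp only [hk]
        rw [Real.smoothTransition.one_of_one_le (by linarith [hr.1]),
          Real.smoothTransition.one_of_one_le (by linarith [(div_le_one hN0).2 hr.2])]
        ring
    rw [e, ← intervalIntegral.integral_of_le h2, integral_inv_of_pos two_pos hN0, hN,
      mul_div_cancel_left₀ _ two_ne_zero, Real.log_exp]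
    exact le_abs_self M
  · have hg := (cut_ind 1 2 c).add (cut_ind N (2 * N) (N⁻¹ * c))
    have hg0 : ∀ a b e r : ℝ, 0 ≤ e → 0 ≤ (Icc a b).indicator (fun _ : ℝ => e) r :=
      fun a b e r he => indicator_nonneg (fun _ _ => he) r
    refine (integral_mono_of_nonneg (ae_restrict_of_forall_mem measurableSet_Ioi fun r hr =>
      mul_nonneg (inv_pos.2 hr).le (by positivity)) hg.integrableOn
      (ae_restrict_of_forall_mem measurableSet_Ioi fun r hr => ?_)).trans
      ((setIntegral_le_integral hg (Eventually.of_forall fun r =>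
        add_nonneg (hg0 _ _ _ _ hc0) (hg0 _ _ _ _ (by positivity)))).trans_eq ?_)
    · obtain ⟨a1, a2⟩ := cut_der h0 hL hN0 hr (D := deriv k r) (by rw [hk])
      have a3 : |r * deriv k r| + (r * deriv k r) ^ 2 ≤ c := by
        rw [hc, ← sq_abs (r * deriv k r)]
        exact add_le_add a1 (pow_le_pow_left₀ (abs_nonneg _) a1 2)
      have a4 : 0 ≤ |r * deriv k r| + (r * deriv k r) ^ 2 := by positivity
      simp only [Pi.add_apply]
      by_cases b1 : r ∈ Icc (1 : ℝ) 2
      · rw [indicator_of_mem b1]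
        exact le_add_of_le_of_nonneg
          ((mul_le_of_le_one_left a4 (inv_le_one_of_one_le₀ b1.1)).trans a3)
          (hg0 _ _ _ _ (by positivity))
      by_cases b2 : r ∈ Icc N (2 * N)
      · rw [indicator_of_mem b2]
        exact le_add_of_nonneg_of_le (hg0 _ _ _ _ hc0)
          (mul_le_mul (inv_anti₀ hN0 b2.1) a3 a4 (by positivity))
      · rw [indicator_of_notMem b1, indicator_of_notMem b2, a2 b1 b2]
        simp
    · rw [integral_add' (cut_ind _ _ _) (cut_ind _ _ _), integral_indicator_const _ measurableSet_Icc,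
        integral_indicator_const _ measurableSet_Icc, Real.volume_real_Icc_of_le one_le_two,
        Real.volume_real_Icc_of_le (by linarith), smul_eq_mul, smul_eq_mul]
      field_simp
      ring

end Vale.Agent.P098.SE
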