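import Vale.Agent.P098.S1.E.Sign

/-!
P098 S1/E/Fin (TASK): letting `ε → 0`.  Prefix helper names by `fin_`.
Fix `x₀` in Om, `R > ‖x₀‖`, `O = Om ∩ ball 0 R` (open, finite measure).  For `0 < ε ≤ 1`: `gain ≥ del * (C + 1) ^ (al - 1) * φ - lam * ε ^ al` (`Real.rpow_le_rpow_of_nonpos`, `ε ^ (al - 1) * ε = ε ^ al`).
`φ` and `gain` are bounded and continuous on `O`, hence integrable (`Measure.integrableOn_of_bounded`, `gain_cont`).  So `del * (C+1)^(al-1) * ∫_O φ ≤ lam * ε^al * vol O` for all small `ε`, `∫_O φ ≤ 0`, `φ = 0` a.e. on `O` (`setIntegral_eq_zero_iff_of_nonneg_ae`), and everywhere on `O` (`Measure.eqOn_open_of_ae_eq`).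
-/

open MeasureTheory Filter Topology Set Metric
open scoped ContDiff RealInnerProductSpace NNReal

set_option maxSynthPendingDepth 3

noncomputable section

namespace Vale.Agent.P098.SE

variable {d : ℕ}

theorem fin_low {a C al del lam ε : ℝ} (h0 : 0 ≤ a) (h1 : a ≤ C) (hal : al < 1) (hd : 0 < del)
    (hl : 0 ≤ lam) (hε : 0 < ε) (hε1 : ε ≤ 1) :
    del * (C + 1) ^ (al - 1) * a - lam * ε ^ al ≤ (a + ε) ^ (al - 1) * (del * a - lam * ε) := by
  have b1 : (C + 1) ^ (al - 1) ≤ (a + ε) ^ (al - 1) :=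
    Real.rpow_le_rpow_of_nonpos (by linarith) (by linarith) (by linarith)
  have b2 : (a + ε) ^ (al - 1) ≤ ε ^ (al - 1) :=
    Real.rpow_le_rpow_of_nonpos hε (by linarith) (by linarith)
  have b3 : ε ^ (al - 1) * ε = ε ^ al := by rw [Real.rpow_sub_one hε.ne', div_mul_cancel₀ _ hε.ne']
  have b4 := mul_le_mul_of_nonneg_right b1 (mul_nonneg hd.le h0)
  have b5 := mul_le_mul_of_nonneg_right b2 (mul_nonneg hl hε.le)
  rw [← b3]
  linarith

theorem fin_abs {a C al del lam ε : ℝ} (h0 : 0 ≤ a) (h1 : a ≤ C) (hal : al < 1) (hd : 0 < del)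
    (hl : 0 ≤ lam) (hε : 0 < ε) :
    |(a + ε) ^ (al - 1) * (del * a - lam * ε)| ≤ ε ^ (al - 1) * (del * C + lam * ε) := by
  have b2 : (a + ε) ^ (al - 1) ≤ ε ^ (al - 1) :=
    Real.rpow_le_rpow_of_nonpos hε (by linarith) (by linarith)
  have b3 := mul_le_mul_of_nonneg_left h1 hd.le
  have b4 := mul_nonneg hd.le h0
  have b5 := mul_nonneg hl hε.le
  rw [abs_mul, abs_of_nonneg (Real.rpow_nonneg (by linarith) _)]
  exact mul_le_mul b2 (abs_le.2 ⟨by linarith, by linarith⟩) (abs_nonneg _)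
    (Real.rpow_nonneg hε.le _)

theorem phi_zero {u φ : E d → ℝ} {Y : E d → E d} {al del : ℝ} (h : Ab u φ Y al del)
    (H : ∀ ε : ℝ, 0 < ε → ∀ R : ℝ, ∫ x in {x | 0 < u x} ∩ ball 0 R, gain φ al del ε x ≤ 0) :
    ∀ x, 0 < u x → φ x = 0 := by
  intro x₀ hx₀
  obtain ⟨C, hC⟩ := h.bφ
  obtain ⟨L, hL⟩ := h.cone.lip
  have hx : x₀ ∈ {x | 0 < u x} ∩ ball 0 (‖x₀‖ + 1) := ⟨hx₀, mem_ball_zero_iff.2 (lt_add_one _)⟩
  have hO : IsOpen ({x | 0 < u x} ∩ ball 0 (‖x₀‖ + 1)) :=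
    (isOpen_lt continuous_const hL.continuous).inter isOpen_ball
  have hV : volume ({x | 0 < u x} ∩ ball 0 (‖x₀‖ + 1)) < ⊤ :=
    (measure_mono inter_subset_right).trans_lt measure_ball_lt_top
  have hs : {x | 0 < u x} ∩ ball 0 (‖x₀‖ + 1) ⊆ {x | 0 < u x} := inter_subset_left
  have H' := fun ε hε => H ε hε (‖x₀‖ + 1)
  generalize {x | 0 < u x} ∩ ball 0 (‖x₀‖ + 1) = O at hx hO hV hs H'
  have hc : ContinuousOn φ O := fun x hx => (h.sφ x (hs hx)).continuousAt.continuousWithinAt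
  have hi : IntegrableOn φ O := IntegrableOn.of_bound hV
    (hc.aestronglyMeasurable hO.measurableSet) C
    (ae_restrict_of_forall_mem hO.measurableSet fun x hx => (hC x (hs hx)).1)
  have hl : 0 ≤ ((d : ℝ) - 2) ^ 2 / 4 := by positivity
  have hC0 : 0 ≤ C := (abs_nonneg _).trans (hC x₀ hx₀).1
  have hp : 0 < del * (C + 1) ^ (al - 1) :=
    mul_pos h.del_pos (Real.rpow_pos_of_pos (by linarith) _)
  have h1 : ∀ ε : ℝ, 0 < ε → ε ≤ 1 → del * (C + 1) ^ (al - 1) * ∫ x in O, φ x ≤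
      volume.real O * (((d : ℝ) - 2) ^ 2 / 4 * ε ^ al) := fun ε hε hε1 => by
    have i1 : IntegrableOn (gain φ al del ε) O := IntegrableOn.of_bound hV
      (((gain_cont h hε).1.mono hs).aestronglyMeasurable hO.measurableSet) _
      (ae_restrict_of_forall_mem hO.measurableSet fun x hx =>
        fin_abs (h.nn x (hs hx)) (le_of_abs_le (hC x (hs hx)).1) h.al_lt h.del_pos hl hε)
    have i2 : IntegrableOn (fun _ : E d => ((d : ℝ) - 2) ^ 2 / 4 * ε ^ al) O :=
      integrableOn_const hV.ne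
    have i3 := setIntegral_mono_on ((hi.const_mul (del * (C + 1) ^ (al - 1))).sub i2) i1
      hO.measurableSet fun x hx =>
        fin_low (h.nn x (hs hx)) (le_of_abs_le (hC x (hs hx)).1) h.al_lt h.del_pos hl hε hε1
    simp only [Pi.sub_apply] at i3
    rw [integral_sub (hi.const_mul _) i2, integral_const_mul, setIntegral_const, smul_eq_mul] at i3
    linarith [H' ε hε]
  have h2 : Tendsto (fun ε : ℝ => volume.real O * (((d : ℝ) - 2) ^ 2 / 4 * ε ^ al)) (𝓝[>] 0)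
      (𝓝 0) := by
    have t := (((Real.continuous_rpow_const h.al_pos.le).tendsto 0).const_mul
      (((d : ℝ) - 2) ^ 2 / 4)).const_mul (volume.real O)
    rw [Real.zero_rpow h.al_pos.ne', mul_zero, mul_zero] at t
    exact t.mono_left nhdsWithin_le_nhds
  have h3 : del * (C + 1) ^ (al - 1) * ∫ x in O, φ x ≤ 0 := ge_of_tendsto h2 (by
    filter_upwards [Ioc_mem_nhdsGT (zero_lt_one' ℝ)] with ε hε using h1 ε hε.1 hε.2)
  have h4 : 0 ≤ᵐ[volume.restrict O] φ :=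
    ae_restrict_of_forall_mem hO.measurableSet fun x hx => h.nn x (hs hx)
  have h5 : ∫ x in O, φ x = 0 :=
    le_antisymm (nonpos_of_mul_nonpos_right h3 hp) (integral_nonneg_of_ae h4)
  exact Measure.eqOn_open_of_ae_eq ((setIntegral_eq_zero_iff_of_nonneg_ae h4 hi).1 h5) hO hc
    continuousOn_const hx

end Vale.Agent.P098.SE
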