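import Vale.Agent.P098.S1.E.Flux

/-!
P098 S1/E/Flux2 (TASK): integrability for test functions and the approximate flux lemma.  Prefix helper names by `flux2_`.
`test_*`: `int_bd` with `pc_open`; `fderiv ρ` is continuous on Om (`ContDiffAt.continuousAt_fderiv` or `ContDiffAt.fderiv_right (m := 0)`), and vanishes at points of Om with `‖x‖ < a` or `b < ‖x‖` (there `ρ = 0` near `x`); use `b + 1`.
`test_int3`: `fderiv (m ρ²) x p = ρ² * fderiv m x p + m * (2 ρ * fderiv ρ x p)`; it is zero when `ρ x = 0`, otherwise `a < ‖x‖` and `|m| ≤ C / a`, `‖fderiv m‖ ≤ C / a²`.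
`flux2`: for `η > 0` apply `flux1` to `W = V + (4 η ρ) • p`, `g + 4 η * fderiv ρ x p` (`dvg_add`, `dvg_smul`, `dvg_grad`, `h.harm`); where `ρ x ≠ 0` we have `a ≤ ‖x‖ ≤ b` and `‖p‖ ≥ 1/2` by `(h.bc (1/2) _ a b _).g1`.  Then `∫ g + 4 η I ≤ 0` for all `η > 0`.
-/

open MeasureTheory Filter Topology Set Metric
open scoped ContDiff RealInnerProductSpace NNReal

set_option maxSynthPendingDepth 3

noncomputable section

namespace Vale.Agent.P098.SE

variable {d : ℕ}

variable {u ρ : E d → ℝ}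

theorem flux2_far (h : PreCone u) (hρ : Test u ρ) :
    ∃ b : ℝ, ∀ x, 0 < u x → b ≤ ‖x‖ → fderiv ℝ ρ x = 0 := by
  obtain ⟨a, b, -, hs⟩ := hρ.supp
  refine ⟨b + 1, fun x hx hb => ?_⟩
  have h1 : ρ =ᶠ[𝓝 x] fun _ => 0 := by
    filter_upwards [(pc_open h).mem_nhds hx,
      (isOpen_lt continuous_const continuous_norm).mem_nhds (show b < ‖x‖ by linarith)] with y h1 h2
    exact hs y h1 (Or.inr (le_of_lt h2))
  rw [h1.fderiv_eq]
  simp

theorem flux2_cd {m : E d → ℝ} (hm : ∀ x, 0 < u x → ContDiffAt ℝ 1 m x) :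
    ContinuousOn (fderiv ℝ m) {x | 0 < u x} := fun x hx =>
  ((hm x hx).continuousAt_fderiv one_ne_zero).continuousWithinAt

theorem flux2_c {m : E d → ℝ} (hm : ∀ x, 0 < u x → ContDiffAt ℝ 1 m x) :
    ContinuousOn m {x | 0 < u x} := fun x hx => (hm x hx).continuousAt.continuousWithinAt

theorem flux2_cg (h : PreCone u) : ContinuousOn (gradient u) {x | 0 < u x} := fun x hx =>
  (s1_contDiffAt_grad (h.harm x hx).1).continuousAt.continuousWithinAt

theorem flux2_app {l : E d →L[ℝ] ℝ} {v : E d} {A B : ℝ} (h1 : ‖l‖ ≤ A) (h2 : ‖v‖ ≤ B) :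
    |l v| ≤ A * B :=
  (l.le_opNorm v).trans (mul_le_mul h1 h2 (norm_nonneg _) ((norm_nonneg _).trans h1))

theorem flux2_mul {a b c e : ℝ} (h1 : |a| ≤ c) (h2 : |b| ≤ e) : |a * b| ≤ c * e := by
  rw [abs_mul]
  exact mul_le_mul h1 h2 (abs_nonneg _) ((abs_nonneg _).trans h1)

theorem test_int1 (h : PreCone u) (hρ : Test u ρ) :
    IntegrableOn (fun x => ‖fderiv ℝ ρ x‖ ^ 2) {x | 0 < u x} := by
  obtain ⟨b, hb⟩ := flux2_far h hρ
  obtain ⟨K, hK⟩ := hρ.bd
  refine int_bd (pc_open h) ((flux2_cd hρ.sm).norm.pow 2) (C := K ^ 2) (b := b)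
    (fun x hx => ?_) fun x hx hx' => by simp [hb x hx hx']
  rw [abs_of_nonneg (by positivity)]
  exact pow_le_pow_left₀ (norm_nonneg _) (hK x hx).2 2

theorem test_int2 (h : PreCone u) (hρ : Test u ρ) :
    IntegrableOn (fun x => fderiv ℝ ρ x (gradient u x)) {x | 0 < u x} := by
  obtain ⟨b, hb⟩ := flux2_far h hρ
  obtain ⟨K, hK⟩ := hρ.bd
  obtain ⟨L, hL⟩ := pc_lin h
  exact int_bd (pc_open h) ((flux2_cd hρ.sm).clm_apply (flux2_cg h)) (C := K * L) (b := b)
    (fun x hx => flux2_app (hK x hx).2 (hL x).1) fun x hx hx' => by simp [hb x hx hx']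

theorem test_int3 (h : PreCone u) (hρ : Test u ρ) {m : E d → ℝ}
    (hm : ∀ x, 0 < u x → ContDiffAt ℝ 1 m x) {C : ℝ}
    (hC : ∀ x, 0 < u x → ‖x‖ * |m x| ≤ C ∧ ‖x‖ ^ 2 * ‖fderiv ℝ m x‖ ≤ C) :
    IntegrableOn (fun x => fderiv ℝ (fun y => m y * ρ y ^ 2) x (gradient u x)) {x | 0 < u x} := by
  obtain ⟨K, hK⟩ := hρ.bd
  obtain ⟨L, hL⟩ := pc_lin h
  obtain ⟨a, b, ha, hs⟩ := hρ.supp
  have key : IntegrableOn (fun x => ρ x * (ρ x * fderiv ℝ m x (gradient u x) +
      2 * (m x * fderiv ℝ ρ x (gradient u x)))) {x | 0 < u x} := by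
    refine int_bd (pc_open h) ((flux2_c hρ.sm).mul (((flux2_c hρ.sm).mul
      ((flux2_cd hm).clm_apply (flux2_cg h))).add (continuousOn_const.mul ((flux2_c hm).mul
        ((flux2_cd hρ.sm).clm_apply (flux2_cg h))))))
      (C := K * (K * (C / a ^ 2 * L) + 2 * (C / a * (K * L)))) (b := b) (fun x hx => ?_)
      fun x hx hx' => by rw [hs x hx (Or.inr hx'), zero_mul]
    have hK0 : 0 ≤ K := (abs_nonneg _).trans (hK x hx).1
    have hL0 : 0 ≤ L := (norm_nonneg _).trans (hL x).1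
    have hC0 : 0 ≤ C := le_trans (by positivity) (hC x hx).1
    rcases le_or_gt ‖x‖ a with hx' | hx'
    · rw [hs x hx (Or.inl hx'), zero_mul, abs_zero]
      positivity
    · have h1 : |m x| ≤ C / a := by
        rw [le_div_iff₀ ha]
        nlinarith [(hC x hx).1, abs_nonneg (m x)]
      have h2 : ‖fderiv ℝ m x‖ ≤ C / a ^ 2 := by
        rw [le_div_iff₀ (by positivity)]
        have : a ^ 2 ≤ ‖x‖ ^ 2 := pow_le_pow_left₀ ha.le hx'.le 2
        nlinarith [(hC x hx).2, norm_nonneg (fderiv ℝ m x)]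
      refine flux2_mul (hK x hx).1 ((abs_add_le _ _).trans (add_le_add
        (flux2_mul (hK x hx).1 (flux2_app h2 (hL x).1))
        (flux2_mul (by norm_num) (flux2_mul h1 (flux2_app (hK x hx).2 (hL x).1)))))
  refine key.congr_fun (fun x hx => ?_) (pc_open h).measurableSet
  have d1 := ((hm x hx).differentiableAt one_ne_zero).hasFDerivAt
  have d2 := ((hρ.sm x hx).differentiableAt one_ne_zero).hasFDerivAt
  have e : (fun y => m y * ρ y ^ 2) = m * (ρ * ρ) := by
    funext y; simp [sq]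
  simp only [e, (d1.mul (d2.mul d2)).fderiv, add_apply, smul_apply, smul_eq_mul, Pi.mul_apply]
  ring

theorem flux2 (h : PreCone u) (hρ : Test u ρ) {V : E d → E d} {g : E d → ℝ}
    (hV : ∀ x, 0 < u x → ContDiffAt ℝ 1 V x) {b : ℝ} (h0 : ∀ x, 0 < u x → b ≤ ‖x‖ → V x = 0)
    (hg : IntegrableOn g {x | 0 < u x}) (hle : ∀ x, 0 < u x → g x ≤ dvg V x)
    (hb : ∀ η : ℝ, 0 < η → ∃ δ : ℝ, 0 < δ ∧
      ∀ x, 0 < u x → u x < δ → -η * ρ x ≤ ⟪V x, gradient u x⟫) :
    ∫ x in {x | 0 < u x}, g x ≤ 0 := by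
  obtain ⟨a, c, ha, hs⟩ := hρ.supp
  obtain ⟨δ₀, hδ₀, hbc⟩ := h.bc (1 / 2) (by norm_num) a c ha
  have hi := test_int2 h hρ
  have key : ∀ η : ℝ, 0 < η → (∫ x in {x | 0 < u x}, g x) +
      4 * η * ∫ x in {x | 0 < u x}, fderiv ℝ ρ x (gradient u x) ≤ 0 := by
    intro η hη
    obtain ⟨δ, hδ, hb'⟩ := hb η hη
    have hp : ∀ x, 0 < u x → ContDiffAt ℝ 1 (gradient u) x := fun x hx =>
      (s1_contDiffAt_grad (h.harm x hx).1).of_le (by exact_mod_cast le_top)
    have h1 := flux1 (pc_cont h) h.nn (fun x hx => s1e_le (h.harm x hx).1 1)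
      (W := fun x => V x + (4 * η * ρ x) • gradient u x)
      (g := fun x => g x + 4 * η * fderiv ℝ ρ x (gradient u x))
      (fun x hx => (hV x hx).add ((contDiffAt_const.mul (hρ.sm x hx)).smul (hp x hx)))
      (b := max b c) (fun x hx hx' => by
        simp [h0 x hx ((le_max_left _ _).trans hx'), hs x hx (Or.inr ((le_max_right _ _).trans hx'))])
      (hg.add (hi.const_mul _)) (fun x hx => ?_) (lt_min hδ hδ₀) (fun x hx hx' => ?_)
    · rwa [integral_add hg (hi.const_mul _), integral_const_mul] at h1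
    · have d1 := (hρ.sm x hx).differentiableAt one_ne_zero
      have d2 := (hp x hx).differentiableAt one_ne_zero
      rw [dvg_add ((hV x hx).differentiableAt one_ne_zero) ((d1.const_mul _).fun_smul d2),
        dvg_smul (d1.const_mul _) d2, dvg_grad (h.harm x hx).1, (h.harm x hx).2,
        fderiv_const_mul d1]
      simp only [smul_apply, smul_eq_mul]
      linarith [hle x hx]
    · have h2 := hb' x hx (hx'.trans_le (min_le_left _ _))
      rw [inner_add_left, real_inner_smul_left, real_inner_self_eq_norm_sq]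
      by_cases h3 : ρ x = 0
      · rw [h3] at h2 ⊢
        linarith
      · have h4 : a ≤ ‖x‖ := by
          by_contra h4
          exact h3 (hs x hx (Or.inl (not_le.1 h4).le))
        have h5 : ‖x‖ ≤ c := by
          by_contra h5
          exact h3 (hs x hx (Or.inr (not_le.1 h5).le))
        have h6 := (abs_le.1 (hbc x h4 h5 hx (hx'.trans_le (min_le_right _ _))).g1).1
        have h7 : 1 / 4 ≤ ‖gradient u x‖ ^ 2 := by nlinarith
        nlinarith [mul_le_mul_of_nonneg_left h7 (mul_nonneg hη.le (hρ.nn x hx))]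
  generalize (∫ x in {x | 0 < u x}, g x) = A at *
  generalize (∫ x in {x | 0 < u x}, fderiv ℝ ρ x (gradient u x)) = B at *
  by_contra hA
  have hA' : 0 < A := not_le.1 hA
  have h1 := key (A / (8 * (|B| + 1))) (by positivity)
  obtain ⟨t, ht⟩ : ∃ t, t = A / (8 * (|B| + 1)) := ⟨_, rfl⟩
  have h2 : t * (8 * (|B| + 1)) = A := by rw [ht]; field_simp
  have h3 : 0 < t := by rw [ht]; positivity
  rw [← ht] at h1
  nlinarith [mul_le_mul_of_nonneg_left (neg_abs_le B) h3.le, mul_nonneg h3.le (abs_nonneg B)]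

end Vale.Agent.P098.SE
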