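import Vale.Agent.P098.S1.E.Pt1

/-!
P098 S1/E/Sign (TASK): the sign of the flux and integrability of the weights.  Prefix helper names by `sign_`.
`flux_sign`: `psi_sq`, `r ^ (1 - d) = r * (r ^ d)⁻¹`, `Th ^ al = Th ^ (al - 1) * Th` give `⟪V, p⟫ = k² * (r * (r^d)⁻¹ * Th^(al-1)) * (⟪Y, p⟫ - r m Th ‖p‖²)`.
If `k r = 0` trivial.  Otherwise `a < r < b`, the middle factor is in `[0, N]`, `N = b * (a^d)⁻¹ * ε^(al-1)`, and the bracket equals
`(⟪Y,p⟫ - r m φ) + r m φ (1 - ‖p‖²) - r m ε ‖p‖² ≥ -η' - C₁ C₂ * 2 η' - b η' ε` by `h.bdry η'`, `h.grad`, `h.bm`, `h.bφ`.  Choose `η'` small.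
`int_w1`, `int_w2`: `int_bd`; the functions vanish when `k r = 0` (`Cut.deriv_zero`), otherwise `a < r`; `Cut.bd`; `|gain| ≤ ε^(al-1) * (del * C + lam * ε)`.
-/

open MeasureTheory Filter Topology Set Metric
open scoped ContDiff RealInnerProductSpace NNReal

set_option maxSynthPendingDepth 3

noncomputable section

namespace Vale.Agent.P098.SE

variable {d : ℕ}

variable {u φ : E d → ℝ} {Y : E d → E d} {al del ε : ℝ} {k : ℝ → ℝ}

theorem sign_supp {a b r : ℝ} (hab : ∀ r, r ≤ a ∨ b ≤ r → k r = 0) (k0 : k r ≠ 0) :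
    a ≤ r ∧ r ≤ b :=
  ⟨le_of_not_ge fun h => k0 (hab r (Or.inl h)), le_of_not_ge fun h => k0 (hab r (Or.inr h))⟩

theorem sign_inv {a r : ℝ} (ha : 0 < a) (h : a ≤ r) : (r ^ d)⁻¹ ≤ (a ^ d)⁻¹ :=
  inv_anti₀ (pow_pos ha d) (pow_le_pow_left₀ ha.le h d)

theorem sign_rpow (h : Ab u φ Y al del) (hε : 0 < ε) {x : E d} (hx : 0 < u x) :
    (φ x + ε) ^ (al - 1) ≤ ε ^ (al - 1) :=
  Real.rpow_le_rpow_of_nonpos hε (by linarith [h.nn x hx]) (by linarith [h.al_lt])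

theorem sign_cont (h : PreCone u) : ContinuousOn (fun x : E d => (‖x‖ ^ d)⁻¹) {x | 0 < u x} :=
  (continuous_norm.pow d).continuousOn.inv₀ fun _ hx =>
    pow_ne_zero _ (norm_ne_zero_iff.2 (pc_ne h hx))

theorem flux_sign (h : Ab u φ Y al del) (hε : 0 < ε) (hk : Cut k) :
    ∀ η : ℝ, 0 < η → ∃ δ : ℝ, 0 < δ ∧ ∀ x, 0 < u x → u x < δ → -η * k ‖x‖ ^ 2 ≤
      ⟪zed φ Y al ε k x - (mc u x * psi φ al ε k x ^ 2) • gradient u x, gradient u x⟫ := by
  intro η hη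
  obtain ⟨a, b, ha, hab⟩ := hk.supp
  obtain ⟨C1, h1⟩ := h.bm
  obtain ⟨C2, h2⟩ := h.bφ
  obtain ⟨N, hN⟩ : ∃ N, N = |b| * (a ^ d)⁻¹ * ε ^ (al - 1) := ⟨_, rfl⟩
  obtain ⟨M, hM⟩ : ∃ M, M = 1 + 2 * (|C1| * |C2|) + |b| * ε := ⟨_, rfl⟩
  have N0 : 0 ≤ N := by rw [hN]; positivity
  have M0 : 0 ≤ M := by rw [hM]; positivity
  obtain ⟨e, he⟩ : ∃ e, e = η / (N * M + 1) := ⟨_, rfl⟩
  have e0 : 0 < e := by rw [he]; positivity
  have e1 : N * (e * M) ≤ η := by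
    have : e * (N * M + 1) = η := by
      rw [he]
      field_simp
    linarith
  obtain ⟨δ, hδ, hb⟩ := h.bdry e e0 a b ha
  refine ⟨δ, hδ, fun x hx hxδ => ?_⟩
  have x0 := pc_ne h.cone.toPreCone hx
  have r0 : 0 < ‖x‖ := norm_pos_iff.2 x0
  have φ0 := h.nn x hx
  have hT : 0 < φ x + ε := by linarith
  have q1 : ‖x‖ ^ (1 - (d : ℝ)) = ‖x‖ * (‖x‖ ^ d)⁻¹ := by
    rw [Real.rpow_sub r0, Real.rpow_one, Real.rpow_natCast, div_eq_mul_inv]
  have q2 : (φ x + ε) ^ al = (φ x + ε) ^ (al - 1) * (φ x + ε) := by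
    rw [← Real.rpow_add_one hT.ne', sub_add_cancel]
  have q3 : ⟪zed φ Y al ε k x - (mc u x * psi φ al ε k x ^ 2) • gradient u x, gradient u x⟫ =
      (‖x‖ * (‖x‖ ^ d)⁻¹ * (φ x + ε) ^ (al - 1)) *
        (⟪Y x, gradient u x⟫ - ‖x‖ * mc u x * (φ x + ε) * ‖gradient u x‖ ^ 2) * k ‖x‖ ^ 2 := by
    rw [inner_sub_left, zed, real_inner_smul_left, real_inner_smul_left,
      real_inner_self_eq_norm_sq, psi_sq x0 hT, q1, q2]
    ring
  rw [q3]
  by_cases k0 : k ‖x‖ = 0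
  · simp [k0]
  refine mul_le_mul_of_nonneg_right ?_ (sq_nonneg _)
  obtain ⟨a1, a2⟩ := sign_supp hab k0
  obtain ⟨b1, b2, b3⟩ := hb x a1 a2 hx hxδ
  have F0 : 0 ≤ ‖x‖ * (‖x‖ ^ d)⁻¹ * (φ x + ε) ^ (al - 1) := by positivity
  have F1 : ‖x‖ * (‖x‖ ^ d)⁻¹ * (φ x + ε) ^ (al - 1) ≤ N := by
    rw [hN]
    exact mul_le_mul (mul_le_mul (a2.trans (le_abs_self b)) (sign_inv ha a1) (by positivity)
      (abs_nonneg _)) (sign_rpow h hε hx) (by positivity) (by positivity)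
  have g0 := norm_nonneg (gradient u x)
  have g1 := h.grad x hx
  have g2 : ‖gradient u x‖ ^ 2 ≤ 1 := pow_le_one₀ g0 g1
  have g3 : 1 - ‖gradient u x‖ ^ 2 ≤ 2 * e := by
    linarith [(abs_le.1 b3).1, sq_nonneg (1 - ‖gradient u x‖)]
  have c1 : |‖x‖ * mc u x * φ x * (1 - ‖gradient u x‖ ^ 2)| ≤ |C1| * |C2| * (2 * e) := by
    rw [abs_mul, abs_mul, abs_mul, abs_norm, abs_of_nonneg (sub_nonneg.2 g2)]
    exact mul_le_mul (mul_le_mul ((h1 x hx).1.trans (le_abs_self _))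
      ((h2 x hx).1.trans (le_abs_self _)) (abs_nonneg _) (abs_nonneg _)) g3 (sub_nonneg.2 g2)
      (by positivity)
  have c2 : mc u x * (‖x‖ * ‖gradient u x‖ ^ 2 * ε) ≤ e * (|b| * 1 * ε) :=
    (mul_le_mul_of_nonneg_right b2 (by positivity)).trans (mul_le_mul_of_nonneg_left
      (mul_le_mul_of_nonneg_right (mul_le_mul (a2.trans (le_abs_self b)) g2 (sq_nonneg _)
        (abs_nonneg _)) hε.le) e0.le)
  have c3 : -(e * M) ≤
      ⟪Y x, gradient u x⟫ - ‖x‖ * mc u x * (φ x + ε) * ‖gradient u x‖ ^ 2 := by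
    rw [hM]
    linarith [(abs_le.1 c1).1]
  have c4 := mul_le_mul_of_nonneg_left c3 F0
  have c5 := mul_le_mul_of_nonneg_right F1 (mul_nonneg e0.le M0)
  linarith

theorem gain_cont (h : Ab u φ Y al del) (hε : 0 < ε) :
    ContinuousOn (gain φ al del ε) {x | 0 < u x} ∧
      ∃ C : ℝ, ∀ x, 0 < u x → |gain φ al del ε x| ≤ C := by
  have c : ContinuousOn φ {x | 0 < u x} := fun x hx =>
    (h.sφ x hx).continuousAt.continuousWithinAt
  obtain ⟨C, hC⟩ := h.bφ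
  refine ⟨((c.add continuousOn_const).rpow_const fun x hx =>
    Or.inl (add_pos_of_nonneg_of_pos (h.nn x hx) hε).ne').mul
      ((continuousOn_const.mul c).sub continuousOn_const),
    ε ^ (al - 1) * (del * C + ((d : ℝ) - 2) ^ 2 / 4 * ε), fun x hx => ?_⟩
  have hT : 0 < φ x + ε := add_pos_of_nonneg_of_pos (h.nn x hx) hε
  rw [gain, abs_mul, abs_of_nonneg (Real.rpow_nonneg hT.le _)]
  refine mul_le_mul (sign_rpow h hε hx) ((abs_sub _ _).trans (add_le_add ?_ ?_)) (abs_nonneg _)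
    (Real.rpow_nonneg hε.le _)
  · rw [abs_mul, abs_of_pos h.del_pos]
    exact mul_le_mul_of_nonneg_left (hC x hx).1 h.del_pos.le
  · rw [abs_of_nonneg (by positivity)]

theorem int_w1 (h : Ab u φ Y al del) (hε : 0 < ε) (hk : Cut k) :
    IntegrableOn (fun x : E d => w1 d k ‖x‖ * gain φ al del ε x) {x | 0 < u x} := by
  obtain ⟨a, b, ha, hab⟩ := hk.supp
  obtain ⟨c, C, hC⟩ := gain_cont h hε
  refine int_bd (pc_open h.cone.toPreCone) (((sign_cont h.cone.toPreCone).mul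
    ((hk.sm.continuous.comp continuous_norm).pow 2).continuousOn).mul c)
    (C := (a ^ d)⁻¹ * 1 * C) (b := b) (fun x hx => ?_) fun x _ hb => ?_
  · rw [abs_mul]
    refine mul_le_mul ?_ (hC x hx) (abs_nonneg _) (by positivity)
    by_cases k0 : k ‖x‖ = 0
    · rw [w1, k0, sq, mul_zero, mul_zero, abs_zero]
      positivity
    · rw [w1, abs_of_nonneg (by positivity)]
      exact mul_le_mul (sign_inv ha (sign_supp hab k0).1) (pow_le_one₀ (hk.nn _) (hk.le _))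
        (sq_nonneg _) (by positivity)
  · simp [w1, hab _ (Or.inr hb)]

theorem int_w2 (h : PreCone u) (hk : Cut k) :
    IntegrableOn (fun x : E d => w2 d k ‖x‖) {x | 0 < u x} := by
  obtain ⟨a, b, ha, hab⟩ := hk.supp
  obtain ⟨L, hL⟩ := hk.bd
  have c : Continuous fun x : E d => ‖x‖ * deriv k ‖x‖ :=
    continuous_norm.mul ((hk.sm.continuous_deriv le_rfl).comp continuous_norm)
  have L0 : 0 ≤ L := (abs_nonneg _).trans (hL 0).1
  refine int_bd (pc_open h) ((sign_cont h).mul (c.abs.add (c.pow 2)).continuousOn)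
    (C := (a ^ d)⁻¹ * (L + L ^ 2)) (b := b) (fun x _ => ?_) fun x _ hb => ?_
  · by_cases k0 : k ‖x‖ = 0
    · rw [w2, hk.deriv_zero k0, mul_zero, abs_zero, sq, mul_zero, add_zero, mul_zero, abs_zero]
      positivity
    · rw [w2, abs_of_nonneg (by positivity)]
      refine mul_le_mul (sign_inv ha (sign_supp hab k0).1) (add_le_add (hL _).2 ?_)
        (by positivity) (by positivity)
      rw [← sq_abs]
      exact pow_le_pow_left₀ (abs_nonneg _) (hL _).2 2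
  · simp [w2, hk.deriv_zero (hab _ (Or.inr hb))]

end Vale.Agent.P098.SE
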