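import Vale.Agent.P098.S1.E.Pt2
import Vale.Agent.P098.S1.E.Sign
import Vale.Agent.P098.S1.E.Flux2

/-!
P098 S1/E/Ineq: the integrated inequality.
-/

open MeasureTheory Filter Topology Set Metric
open scoped ContDiff RealInnerProductSpace NNReal

set_option maxSynthPendingDepth 3

noncomputable section

namespace Vale.Agent.P098.SE

variable {d : ℕ}

variable {u φ : E d → ℝ} {Y : E d → E d} {al del ε : ℝ}

theorem ineq (h : Ab u φ Y al del) (hε : 0 < ε) : ∃ K : ℝ, ∀ k, Cut k →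
    ∫ x in {x | 0 < u x}, w1 d k ‖x‖ * gain φ al del ε x ≤
      K * ∫ x in {x : E d | 0 < u x}, w2 d k ‖x‖ := by
  obtain ⟨K, hK⟩ := pointwise h hε
  refine ⟨K, fun k hk => ?_⟩
  have hp := h.cone.toPreCone
  have hψ := test_psi h hε hk
  obtain ⟨C, hC⟩ := h.bm
  have i1 := int_w1 h hε hk
  have i2 := int_w2 hp hk
  have i3 := test_int1 hp hψ
  have i4 := test_int3 hp hψ h.sm hC
  have h1 : (1 : WithTop ℕ∞) ≤ ∞ := by exact_mod_cast le_top
  have s1 : ∀ x, 0 < u x → ContDiffAt ℝ 1 (fun y => mc u y * psi φ al ε k y ^ 2) x :=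
    fun x hx => (h.sm x hx).mul ((hψ.sm x hx).pow 2)
  have s2 : ∀ x, 0 < u x → ContDiffAt ℝ 1 (gradient u) x :=
    fun x hx => (s1_contDiffAt_grad (hp.harm x hx).1).of_le h1
  obtain ⟨a, b, -, hab⟩ := hk.supp
  have i5 : IntegrableOn (fun x : E d => w1 d k ‖x‖ * gain φ al del ε x - K * w2 d k ‖x‖)
      {x | 0 < u x} := i1.sub (i2.const_mul K)
  have i6 : IntegrableOn (fun x : E d => w1 d k ‖x‖ * gain φ al del ε x - K * w2 d k ‖x‖ +
      ‖fderiv ℝ (psi φ al ε k) x‖ ^ 2) {x | 0 < u x} := i5.add i3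
  have key := flux2 hp (test_cut hp hk)
    (V := fun y => zed φ Y al ε k y - (mc u y * psi φ al ε k y ^ 2) • gradient u y)
    (g := fun x => w1 d k ‖x‖ * gain φ al del ε x - K * w2 d k ‖x‖ +
      ‖fderiv ℝ (psi φ al ε k) x‖ ^ 2 -
        fderiv ℝ (fun y => mc u y * psi φ al ε k y ^ 2) x (gradient u x))
    (fun x hx => (sm_zed h hε hk hx).sub ((s1 x hx).smul (s2 x hx))) (b := b)
    (fun x _ hb => by simp [zed, psi, hab _ (Or.inr hb)]) (i6.sub i4)
    (fun x hx => by
      have d1 := (s1 x hx).differentiableAt (by simp)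
      have d2 := (s2 x hx).differentiableAt (by simp)
      rw [dvg_sub ((sm_zed h hε hk hx).differentiableAt (by simp)) (d1.fun_smul d2), dvg_smul d1 d2,
        dvg_grad (hp.harm x hx).1, (hp.harm x hx).2]
      linarith [hK k hk x hx])
    (flux_sign h hε hk)
  rw [integral_sub i6 i4, integral_add i5 i3, integral_sub i1 (i2.const_mul K),
    integral_const_mul] at key
  linarith [h.cone.stab _ hψ]

end Vale.Agent.P098.SE
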