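import Vale.Agent.P098.S1.E.Defs

/-!
P098 S1/E/Polar (TASK): polar coordinates for products.  Start helper names by `polar_`.
`polar`: copy the proof of `MeasureTheory.integral_fun_norm_addHaar` (Mathlib/MeasureTheory/Constructions/HaarToSphere.lean): restrict to `{0}ᶜ`, `measurePreserving_homeomorphUnitSphereProd`, `integral_prod_mul` (no integrability needed), `volumeIoiPow`;
`A = ∫ θ, O.indicator h θ ∂ volume.toSphere`; first rewrite the set integral with `integral_indicator`, the function `O.indicator h` is again 0-homogeneous.  `Nontrivial (E d)` from `hd`, `finrank_euclideanSpace_fin`.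
`scale`: `polar` for `h` (constant `A`) and for `1` (constant `A₁`); `r ^ (d-1) * (r ^ d)⁻¹ = r⁻¹` on `Ioi 0` (`setIntegral_congr_fun`).  If `A > 0`: `M * A ≤ |K| * C * |A₁|` for every `M` (`exists_cut`), absurd.
So `A ≤ 0`; take `f = (Iio R).indicator 1`.
-/

open MeasureTheory Filter Topology Set Metric
open scoped ContDiff RealInnerProductSpace NNReal

set_option maxSynthPendingDepth 3

noncomputable section

namespace Vale.Agent.P098.SE

variable {d : ℕ}

theorem polar_univ (hd : 1 ≤ d) {h : E d → ℝ}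
    (hh : ∀ r : ℝ, 0 < r → ∀ x, h (r • x) = h x) : ∃ A : ℝ, ∀ f : ℝ → ℝ,
      ∫ x, f ‖x‖ * h x = (∫ r in Ioi (0 : ℝ), r ^ (d - 1) * f r) * A := by
  have : Nonempty (Fin d) := ⟨⟨0, hd⟩⟩
  have : Nontrivial (E d) := inferInstance
  refine ⟨∫ θ : sphere (0 : E d) 1, h θ ∂(volume : Measure (E d)).toSphere, fun f => ?_⟩
  calc ∫ x, f ‖x‖ * h x
      = ∫ x : ({(0)}ᶜ : Set (E d)), f ‖x.1‖ * h x.1 ∂((volume : Measure (E d)).comap (↑)) := by
        rw [integral_subtype_comap (measurableSet_singleton _).compl fun x => f ‖x‖ * h x,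
          restrict_compl_singleton]
    _ = ∫ z : sphere (0 : E d) 1 × Ioi (0 : ℝ), h z.1 * f z.2
          ∂(volume : Measure (E d)).toSphere.prod (.volumeIoiPow (Module.finrank ℝ (E d) - 1)) := by
        rw [← (volume : Measure (E d)).measurePreserving_homeomorphUnitSphereProd.integral_comp
          (Homeomorph.measurableEmbedding _)]
        refine integral_congr_ae (Eventually.of_forall fun x => ?_)
        have hx : 0 < ‖x.1‖ := norm_pos_iff.2 x.2
        simp only [homeomorphUnitSphereProd_apply_fst_coe, homeomorphUnitSphereProd_apply_snd_coe]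
        rw [hh _ (inv_pos.2 hx), mul_comm]
    _ = (∫ θ : sphere (0 : E d) 1, h θ ∂(volume : Measure (E d)).toSphere) *
          ∫ r : Ioi (0 : ℝ), f r ∂(.volumeIoiPow (Module.finrank ℝ (E d) - 1)) :=
        integral_prod_mul (fun θ : sphere (0 : E d) 1 => h θ) fun r : Ioi (0 : ℝ) => f r
    _ = _ := by
        rw [mul_comm, finrank_euclideanSpace_fin]
        simp only [Measure.volumeIoiPow, ENNReal.ofReal]
        rw [integral_withDensity_eq_integral_smul,
          integral_subtype_comap measurableSet_Ioi fun a => Real.toNNReal (a ^ (d - 1)) • f a,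
          setIntegral_congr_fun measurableSet_Ioi fun x hx => ?_]
        · rw [NNReal.smul_def, Real.coe_toNNReal _ (pow_nonneg hx.out.le _), smul_eq_mul]
        · exact (measurable_subtype_coe.pow_const _).real_toNNReal

theorem polar (hd : 1 ≤ d) {O : Set (E d)} (hO : MeasurableSet O)
    (hc : ∀ r : ℝ, 0 < r → ∀ x, r • x ∈ O ↔ x ∈ O) {h : E d → ℝ}
    (hh : ∀ r : ℝ, 0 < r → ∀ x, h (r • x) = h x) : ∃ A : ℝ, ∀ f : ℝ → ℝ,
      ∫ x in O, f ‖x‖ * h x = (∫ r in Ioi (0 : ℝ), r ^ (d - 1) * f r) * A := by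
  obtain ⟨A, hA⟩ := polar_univ hd (h := O.indicator h) fun r hr x => by
    by_cases hx : x ∈ O
    · rw [indicator_of_mem hx, indicator_of_mem ((hc r hr x).2 hx), hh r hr]
    · rw [indicator_of_notMem hx, indicator_of_notMem fun h1 => hx ((hc r hr x).1 h1)]
  refine ⟨A, fun f => ?_⟩
  rw [← hA, ← integral_indicator hO]
  refine integral_congr_ae (Eventually.of_forall fun x => ?_)
  by_cases hx : x ∈ O
  · simp only [indicator_of_mem hx]
  · simp only [indicator_of_notMem hx, mul_zero]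

theorem polar_w (hd : 1 ≤ d) (g : ℝ → ℝ) :
    ∫ r in Ioi (0 : ℝ), r ^ (d - 1) * ((r ^ d)⁻¹ * g r) = ∫ r in Ioi (0 : ℝ), r⁻¹ * g r := by
  refine setIntegral_congr_fun measurableSet_Ioi fun r hr => ?_
  have h0 : r ≠ 0 := hr.out.ne'
  obtain ⟨n, rfl⟩ := Nat.exists_eq_add_of_le' hd
  simp only [Nat.add_sub_cancel, pow_succ]
  field_simp

theorem scale (hcut : ∃ C : ℝ, ∀ M : ℝ, ∃ k, Cut k ∧ M ≤ ∫ r in Ioi (0 : ℝ), r⁻¹ * k r ^ 2 ∧
      ∫ r in Ioi (0 : ℝ), r⁻¹ * (|r * deriv k r| + (r * deriv k r) ^ 2) ≤ C)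
    (hd : 1 ≤ d) {O : Set (E d)} (hO : MeasurableSet O)
    (hc : ∀ r : ℝ, 0 < r → ∀ x, r • x ∈ O ↔ x ∈ O) {h : E d → ℝ}
    (hh : ∀ r : ℝ, 0 < r → ∀ x, h (r • x) = h x) {K : ℝ}
    (H : ∀ k, Cut k → ∫ x in O, w1 d k ‖x‖ * h x ≤ K * ∫ x in O, w2 d k ‖x‖) (R : ℝ) :
    ∫ x in O ∩ ball 0 R, h x ≤ 0 := by
  obtain ⟨C, hC⟩ := hcut
  obtain ⟨A, hA⟩ := polar hd hO hc hh
  obtain ⟨A₁, hA₁⟩ := polar hd hO hc (h := fun _ => 1) fun _ _ _ => rfl
  have hle : A ≤ 0 := by
    by_contra hpos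
    push Not at hpos
    obtain ⟨k, hk, h1, h2⟩ := hC ((|K * A₁| * C + 1) / A)
    have h3 := H k hk
    have e1 := hA (w1 d k)
    have e2 := hA₁ (w2 d k)
    simp only [mul_one] at e2
    rw [e1, e2] at h3
    simp only [w1, w2] at h3
    rw [polar_w hd fun r => k r ^ 2,
      polar_w hd fun r => |r * deriv k r| + (r * deriv k r) ^ 2] at h3
    have h4 : 0 ≤ ∫ r in Ioi (0 : ℝ), r⁻¹ * (|r * deriv k r| + (r * deriv k r) ^ 2) :=
      setIntegral_nonneg measurableSet_Ioi fun r hr =>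
        mul_nonneg (inv_nonneg.2 hr.out.le) (by positivity)
    rw [div_le_iff₀ hpos] at h1
    have h5 := mul_le_mul_of_nonneg_left h2 (abs_nonneg (K * A₁))
    have h6 := mul_le_mul_of_nonneg_right (le_abs_self (K * A₁)) h4
    nlinarith
  have e := hA ((Iio R).indicator 1)
  have e' : ∫ x in O ∩ ball 0 R, h x = ∫ x in O, (Iio R).indicator (1 : ℝ → ℝ) ‖x‖ * h x := by
    rw [← setIntegral_indicator measurableSet_ball]
    refine integral_congr_ae (Eventually.of_forall fun x => ?_)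
    by_cases hx : ‖x‖ < R
    · simp only [indicator_of_mem (mem_ball_zero_iff.2 hx), indicator_of_mem (mem_Iio.2 hx),
        Pi.one_apply, one_mul]
    · simp only [indicator_of_notMem fun h1 => hx (mem_ball_zero_iff.1 h1),
        indicator_of_notMem fun h1 => hx (mem_Iio.1 h1), zero_mul]
  rw [e', e]
  refine mul_nonpos_of_nonneg_of_nonpos (setIntegral_nonneg measurableSet_Ioi fun r hr => ?_) hle
  exact mul_nonneg (pow_nonneg hr.out.le _) (indicator_nonneg (fun _ _ => zero_le_one) _)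

end Vale.Agent.P098.SE
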