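import Vale.Agent.P098.S1.E.Grad
import Vale.Agent.P098.S1.E.Bdry
import Vale.Agent.P098.S1.E.BdB
import Vale.Agent.P098.S1.E.Ineq
import Vale.Agent.P098.S1.E.Polar
import Vale.Agent.P098.S1.E.Cut
import Vale.Agent.P098.S1.E.Fin

/-! P098 S1/E/Main: the integral argument (see notes/P098_h4.md, section S1-E) -/

open MeasureTheory Filter Topology Set Metric
open scoped ContDiff RealInnerProductSpace NNReal

set_option maxSynthPendingDepth 3

noncomputable section

namespace Vale.Agent.P098

variable {d : ℕ}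

open SE in
theorem cone_D2_zero (hd : 3 ≤ d) (c : Cert d) {u : E d → ℝ} (h : Cone u) :
    ∀ x, 0 < u x → D2 u x = 0 := by
  have hp := h.toPreCone
  have hg := grad_le_one (by omega) hp
  have h1 : (1 : WithTop ℕ∞) ≤ ∞ := by exact_mod_cast le_top
  have hpos := fun x (hx : 0 < u x) =>
    c.phi_pos u _ (pc_open hp) hp.harm hp.hom x hx (pc_ne hp hx) hx.le (hg x hx)
  have hA : Ab u (phiOf c.Φ u) (fldOf c.X u) c.al c.del :=
    ⟨h, c.al_pos, c.al_lt, c.del_pos,
      fun x hx => (sm_phi c.Φ_smooth (hp.harm x hx).1 (pc_ne hp hx)).of_le h1,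
      fun x hx => (sm_fld c.X_smooth (hp.harm x hx).1 (pc_ne hp hx)).of_le h1,
      fun x hx => (sm_mc (hp.harm x hx).1).of_le h1,
      fun r hr x => phiOf_hom c.Φ hp.hom hr x, fun x hx => (hpos x hx).1,
      bd_phi c.Φ_smooth hp, bd_fld c.X_smooth.continuous hp, bd_mc hp, hg, bdry_approx c hp hg,
      fun x hx w hw =>
        c.key u _ (pc_open hp) hp.harm hp.hom x hx (pc_ne hp hx) hx.le (hg x hx) w hw⟩
  intro x hx
  refine (hpos x hx).2 (phi_zero hA (fun ε hε R => ?_) x hx)
  obtain ⟨K, hK⟩ := ineq hA hε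
  exact scale exists_cut (by omega) (pc_open hp).measurableSet (fun r hr x => pc_smul hp hr x)
    (fun r hr x => by simp only [gain, hA.hom r hr x]) hK R

end Vale.Agent.P098
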