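import Vale.Agent.P098.S1.E.Calc

/-!
P098 S1/E/BdA (TASK): smoothness and bounds.  Prefix helper names by `bdA_`.
Smoothness: `s1_contDiffAt_grad`, `s1_contDiffAt_D2`, `s1_contDiffAt_D3`, `contDiffAt_norm ℝ hx`, `ContDiffAt.prodMk`, `.smul`, `.clm_apply`.
`norm_fderiv_grad`: `⟪fderiv (gradient u) x a, b⟫ = D2 u x a b` (`s1_hasFDerivAt_grad`), take `b = fderiv (gradient u) x a`, `opNorm_le_bound`.
`bd_fld`: the jet stays in a closed ball of a finite dimensional space (`pc_lin`, `h.bd`), `IsCompact.exists_bound_of_continuousOn`.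
`bd_mc`: `fderiv m x a = D3 u x a p p + D2 u x (p' a) p + D2 u x p (p' a)`, `p' = fderiv (gradient u) x` (`HasFDerivAt.clm_apply` twice), `le_opNorm`.
-/

open MeasureTheory Filter Topology Set Metric
open scoped ContDiff RealInnerProductSpace NNReal

set_option maxSynthPendingDepth 3

noncomputable section

namespace Vale.Agent.P098.SE

variable {d : ℕ}

variable {u : E d → ℝ} {x : E d}

theorem sm_phi {Φ : E d × ℝ × B2 d → ℝ} (hΦ : ContDiff ℝ ∞ Φ) (h : ContDiffAt ℝ ∞ u x)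
    (hx : x ≠ 0) : ContDiffAt ℝ ∞ (phiOf Φ u) x := by
  have hn : ContDiffAt ℝ ∞ (fun y : E d => ‖y‖) x := contDiffAt_norm ℝ hx
  exact hΦ.contDiffAt.comp x ((s1_contDiffAt_grad h).prodMk
    ((h.div hn (norm_ne_zero_iff.2 hx)).prodMk (hn.smul (s1_contDiffAt_D2 h))))

theorem sm_fld {X : E d × ℝ × B2 d × B3 d → E d} (hX : ContDiff ℝ ∞ X) (h : ContDiffAt ℝ ∞ u x)
    (hx : x ≠ 0) : ContDiffAt ℝ ∞ (fldOf X u) x := by
  have hn : ContDiffAt ℝ ∞ (fun y : E d => ‖y‖) x := contDiffAt_norm ℝ hx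
  exact hX.contDiffAt.comp x ((s1_contDiffAt_grad h).prodMk
    ((h.div hn (norm_ne_zero_iff.2 hx)).prodMk ((hn.smul (s1_contDiffAt_D2 h)).prodMk
      ((hn.pow 2).smul (s1_contDiffAt_D3 h)))))

theorem sm_mc (h : ContDiffAt ℝ ∞ u x) : ContDiffAt ℝ ∞ (mc u) x :=
  ((s1_contDiffAt_D2 h).clm_apply (s1_contDiffAt_grad h)).clm_apply (s1_contDiffAt_grad h)

theorem bdA_inner (h : ContDiffAt ℝ ∞ u x) (a b : E d) :
    ⟪fderiv ℝ (gradient u) x a, b⟫ = D2 u x a b := by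
  rw [← s1_hasFDerivAt_grad h,
    (((s1_contDiffAt_grad h).differentiableAt (by simp)).hasFDerivAt.inner ℝ
      (hasFDerivAt_const b x)).fderiv]
  simp [fderivInnerCLM_apply]

theorem norm_fderiv_grad (h : ContDiffAt ℝ ∞ u x) : ‖fderiv ℝ (gradient u) x‖ ≤ ‖D2 u x‖ := by
  refine ContinuousLinearMap.opNorm_le_bound _ (norm_nonneg _) fun a => ?_
  have h1 := bdA_inner h a (fderiv ℝ (gradient u) x a)
  have h2 := (D2 u x).le_opNorm₂ a (fderiv ℝ (gradient u) x a)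
  rw [← h1, real_inner_self_eq_norm_mul_norm, Real.norm_of_nonneg (mul_self_nonneg _)] at h2
  rcases (norm_nonneg (fderiv ℝ (gradient u) x a)).eq_or_lt with h0 | h0
  · rw [← h0]
    positivity
  · exact le_of_mul_le_mul_right h2 h0

theorem bd_fld {X : E d × ℝ × B2 d × B3 d → E d} (hX : Continuous X) (h : PreCone u) :
    ∃ C : ℝ, ∀ x, 0 < u x → ‖fldOf X u x‖ ≤ C := by
  obtain ⟨L, hL⟩ := pc_lin h
  obtain ⟨C, hC⟩ := h.bd
  have : ProperSpace (E d × ℝ × B2 d × B3 d) := FiniteDimensional.proper ℝ _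
  obtain ⟨K, hK⟩ := (isCompact_closedBall (0 : E d × ℝ × B2 d × B3 d)
    (max L C)).exists_bound_of_continuousOn hX.continuousOn
  refine ⟨K, fun x hx => hK _ (mem_closedBall_zero_iff.2 ?_)⟩
  have h0 : 0 < ‖x‖ := norm_pos_iff.2 (pc_ne h hx)
  refine norm_prod_le_iff.2 ⟨(hL x).1.trans (le_max_left _ _), norm_prod_le_iff.2
    ⟨le_trans ?_ (le_max_left _ _), norm_prod_le_iff.2
      ⟨le_trans ?_ (le_max_right _ _), le_trans ?_ (le_max_right _ _)⟩⟩⟩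
  · show ‖u x / ‖x‖‖ ≤ L
    rw [norm_div, norm_norm, div_le_iff₀ h0]
    exact (hL x).2
  · show ‖‖x‖ • D2 u x‖ ≤ C
    rw [norm_smul, norm_norm]
    exact (hC x hx).1
  · show ‖‖x‖ ^ 2 • D3 u x‖ ≤ C
    rw [norm_smul, norm_pow, norm_norm]
    exact (hC x hx).2

theorem bdA_dmc (h : ContDiffAt ℝ ∞ u x) : ‖fderiv ℝ (mc u) x‖ ≤
    ‖D3 u x‖ * ‖gradient u x‖ ^ 2 + 2 * ‖D2 u x‖ ^ 2 * ‖gradient u x‖ := by
  have h1 := ((s1_contDiffAt_grad h).differentiableAt (by simp)).hasFDerivAt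
  have h2 : HasFDerivAt (D2 u) (D3 u x) x :=
    ((s1_contDiffAt_D2 h).differentiableAt (by simp)).hasFDerivAt
  have h3 : HasFDerivAt (mc u) _ x := (h2.clm_apply h1).clm_apply h1
  refine ContinuousLinearMap.opNorm_le_bound _ (by positivity) fun a => ?_
  have e : fderiv ℝ (mc u) x a = D2 u x (gradient u x) (fderiv ℝ (gradient u) x a) +
      (D2 u x (fderiv ℝ (gradient u) x a) (gradient u x) +
        D3 u x a (gradient u x) (gradient u x)) := by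
    rw [h3.fderiv]
    rfl
  have a0 : ‖fderiv ℝ (gradient u) x a‖ ≤ ‖D2 u x‖ * ‖a‖ :=
    (fderiv ℝ (gradient u) x).le_of_opNorm_le (norm_fderiv_grad h) a
  have a1 := (D2 u x).le_opNorm₂ (gradient u x) (fderiv ℝ (gradient u) x a)
  have a2 := (D2 u x).le_opNorm₂ (fderiv ℝ (gradient u) x a) (gradient u x)
  have a3 := (D3 u x a).le_opNorm₂ (gradient u x) (gradient u x)
  have a4 := mul_le_mul_of_nonneg_right ((D3 u x).le_opNorm a)
    (mul_self_nonneg ‖gradient u x‖)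
  have a5 := mul_le_mul_of_nonneg_left a0
    (mul_nonneg (norm_nonneg (D2 u x)) (norm_nonneg (gradient u x)))
  rw [e]
  refine (norm_add_le_of_le le_rfl (norm_add_le _ _)).trans ?_
  linarith

theorem bd_mc (h : PreCone u) :
    ∃ C : ℝ, ∀ x, 0 < u x → ‖x‖ * |mc u x| ≤ C ∧ ‖x‖ ^ 2 * ‖fderiv ℝ (mc u) x‖ ≤ C := by
  obtain ⟨L, hL⟩ := pc_lin h
  obtain ⟨C, hC⟩ := h.bd
  refine ⟨C * L ^ 2 + 2 * C ^ 2 * L, fun x hx => ?_⟩
  obtain ⟨c1, c2⟩ := hC x hx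
  have l1 := (hL x).1
  have p0 := norm_nonneg (gradient u x)
  have n0 := norm_nonneg x
  have q0 : 0 ≤ ‖x‖ * ‖D2 u x‖ := by positivity
  have C0 : 0 ≤ C := q0.trans c1
  have l2 : ‖gradient u x‖ ^ 2 ≤ L ^ 2 := pow_le_pow_left₀ p0 l1 2
  have t1 : ‖x‖ * ‖D2 u x‖ * ‖gradient u x‖ ^ 2 ≤ C * L ^ 2 := mul_le_mul c1 l2 (sq_nonneg _) C0
  have t2 : ‖x‖ ^ 2 * ‖D3 u x‖ * ‖gradient u x‖ ^ 2 ≤ C * L ^ 2 :=
    mul_le_mul c2 l2 (sq_nonneg _) C0
  have t3 : (‖x‖ * ‖D2 u x‖) ^ 2 * ‖gradient u x‖ ≤ C ^ 2 * L :=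
    mul_le_mul (pow_le_pow_left₀ q0 c1 2) l1 p0 (sq_nonneg _)
  have t4 : 0 ≤ C ^ 2 * L := mul_nonneg (sq_nonneg _) (p0.trans l1)
  constructor
  · have k : |mc u x| ≤ _ := (D2 u x).le_opNorm₂ (gradient u x) (gradient u x)
    have k2 := mul_le_mul_of_nonneg_left k n0
    linarith
  · have k2 := mul_le_mul_of_nonneg_left (bdA_dmc (h.harm x hx).1) (sq_nonneg ‖x‖)
    linarith

end Vale.Agent.P098.SE
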