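import Vale.Agent.P098.S1.E.Defs

/-!
P098 S1/E/Calc: elementary calculus.  Prefix helper names by `calc_`.
-/

open MeasureTheory Filter Topology Set Metric
open scoped ContDiff RealInnerProductSpace NNReal

set_option maxSynthPendingDepth 3

noncomputable section

namespace Vale.Agent.P098.SE

variable {d : ℕ}

variable {u : E d → ℝ} {x : E d}

theorem pc_cont (h : PreCone u) : Continuous u := by
  obtain ⟨L, hL⟩ := h.lip
  exact hL.continuous

theorem pc_open (h : PreCone u) : IsOpen {x | 0 < u x} := by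
  exact isOpen_lt continuous_const (pc_cont h)

theorem pc_ne (h : PreCone u) (hx : 0 < u x) : x ≠ 0 := by
  rintro rfl
  have h1 := h.hom 2 two_pos 0
  rw [smul_zero] at h1
  linarith

theorem pc_smul (h : PreCone u) {r : ℝ} (hr : 0 < r) (x : E d) : 0 < u (r • x) ↔ 0 < u x := by
  rw [h.hom r hr]
  exact mul_pos_iff_of_pos_left hr

theorem pc_lin (h : PreCone u) : ∃ L : ℝ, ∀ x, ‖gradient u x‖ ≤ L ∧ |u x| ≤ L * ‖x‖ := by
  obtain ⟨L, hL⟩ := h.lip
  have h0 : u 0 = 0 := by
    have h1 := h.hom 2 two_pos 0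
    rw [smul_zero] at h1
    linarith
  refine ⟨L, fun x => ⟨?_, ?_⟩⟩
  · rw [gradient, LinearIsometryEquiv.norm_map]
    exact norm_fderiv_le_of_lipschitz ℝ hL
  · simpa [h0, Real.dist_eq] using hL.dist_le_mul x 0

theorem norm_grad (f : E d → ℝ) (x : E d) : ‖gradient f x‖ = ‖fderiv ℝ f x‖ := by
  rw [gradient, LinearIsometryEquiv.norm_map]

theorem inner_grad (f : E d → ℝ) (x v : E d) : ⟪gradient f x, v⟫ = fderiv ℝ f x v := by
  rw [gradient, InnerProductSpace.toDual_symm_apply]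

theorem sum_bv (v : E d) : ∑ i, v i • bv i = v := by
  ext j
  simp [bv, Pi.single_apply]

theorem hasFDerivAt_rad {f : ℝ → ℝ} {f' : ℝ} (hx : x ≠ 0) (hf : HasDerivAt f f' ‖x‖) :
    HasFDerivAt (fun y : E d => f ‖y‖) ((f' / ‖x‖) • innerSL ℝ x) x := by
  have h0 : ‖x‖ ≠ 0 := norm_ne_zero_iff.2 hx
  have h1 : HasFDerivAt (fun y : E d => ‖y‖) (‖x‖⁻¹ • innerSL ℝ x) x := by
    have h2 := ((hasStrictFDerivAt_norm_sq x).hasFDerivAt).sqrt (pow_ne_zero 2 h0)
    simp only [Real.sqrt_sq (norm_nonneg _)] at h2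
    refine h2.congr_fderiv (ContinuousLinearMap.ext fun v => ?_)
    simp only [smul_apply, smul_eq_mul, nsmul_eq_mul, Nat.cast_ofNat]
    field_simp
  refine (hf.comp_hasFDerivAt x h1).congr_fderiv ?_
  rw [smul_smul, div_eq_mul_inv]

theorem hom0_fderiv {f : E d → ℝ} (h : ∀ r : ℝ, 0 < r → ∀ x, f (r • x) = f x)
    (hf : DifferentiableAt ℝ f x) : fderiv ℝ f x x = 0 := by
  have h1 : HasDerivAt (fun t : ℝ => f (t • x)) (fderiv ℝ f x x) 1 := by
    have h2 := hf.hasFDerivAt.comp_hasDerivAt_of_eq (1 : ℝ) ((hasDerivAt_id (1 : ℝ)).smul_const x)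
      (by simp)
    rw [one_smul] at h2
    exact h2
  refine h1.unique ((hasDerivAt_const (1 : ℝ) (f x)).congr_of_eventuallyEq ?_)
  filter_upwards [lt_mem_nhds (zero_lt_one' ℝ)] with t ht
  exact h t ht x

theorem dvg_add {Y Z : E d → E d} (hY : DifferentiableAt ℝ Y x) (hZ : DifferentiableAt ℝ Z x) :
    dvg (fun y => Y y + Z y) x = dvg Y x + dvg Z x := by
  simp only [dvg, fderiv_fun_add hY hZ, add_apply, PiLp.add_apply, Finset.sum_add_distrib]

theorem dvg_sub {Y Z : E d → E d} (hY : DifferentiableAt ℝ Y x) (hZ : DifferentiableAt ℝ Z x) :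
    dvg (fun y => Y y - Z y) x = dvg Y x - dvg Z x := by
  simp only [dvg, fderiv_fun_sub hY hZ, sub_apply, PiLp.sub_apply, Finset.sum_sub_distrib]

theorem dvg_smul {a : E d → ℝ} {Y : E d → E d} (ha : DifferentiableAt ℝ a x)
    (hY : DifferentiableAt ℝ Y x) :
    dvg (fun y => a y • Y y) x = a x * dvg Y x + fderiv ℝ a x (Y x) := by
  have h1 : fderiv ℝ a x (Y x) = ∑ i, fderiv ℝ a x (bv i) * Y x i := by
    conv_lhs => rw [← sum_bv (Y x), map_sum]
    exact Finset.sum_congr rfl fun i _ => by rw [map_smul, smul_eq_mul, mul_comm]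
  simp only [dvg, fderiv_fun_smul ha hY, add_apply, smul_apply,
    ContinuousLinearMap.smulRight_apply, PiLp.add_apply, PiLp.smul_apply, smul_eq_mul,
    Finset.sum_add_distrib, Finset.mul_sum, h1]

theorem dvg_grad (h : ContDiffAt ℝ ∞ u x) : dvg (gradient u) x = lap u x := by
  refine Finset.sum_congr rfl fun i _ => ?_
  have hd := (s1_contDiffAt_grad h).differentiableAt (by simp)
  rw [← s1_hasFDerivAt_grad h]
  have h1 := ((innerSL ℝ (bv i)).hasFDerivAt.comp x hd.hasFDerivAt).fderiv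
  have h2 : (fun y => ⟪gradient u y, bv i⟫) = (innerSL ℝ (bv i)) ∘ gradient u := by
    funext y
    simp [real_inner_comm]
  rw [h2, h1]
  simp [bv, EuclideanSpace.inner_single_left]

theorem int_bd {O : Set (E d)} (hO : IsOpen O) {f : E d → ℝ} (hf : ContinuousOn f O) {C b : ℝ}
    (hC : ∀ x ∈ O, |f x| ≤ C) (hb : ∀ x ∈ O, b ≤ ‖x‖ → f x = 0) : IntegrableOn f O := by
  have h1 : IntegrableOn f (O ∩ ball 0 b) := by
    have hm := (hO.inter (isOpen_ball (x := (0 : E d)) (ε := b))).measurableSet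
    refine IntegrableOn.of_bound ((measure_mono inter_subset_right).trans_lt measure_ball_lt_top)
      ((hf.mono inter_subset_left).aestronglyMeasurable hm) C ?_
    exact ae_restrict_of_forall_mem hm fun x hx => hC x hx.1
  refine h1.of_forall_sdiff_eq_zero hO.measurableSet fun x hx => hb x hx.1 ?_
  by_contra h
  exact hx.2 ⟨hx.1, mem_ball_zero_iff.2 (not_le.1 h)⟩

theorem Cut.deriv_zero {k : ℝ → ℝ} (h : Cut k) {r : ℝ} (hr : k r = 0) : deriv k r = 0 := by
  refine IsLocalMin.deriv_eq_zero (Eventually.of_forall fun s => ?_)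
  rw [hr]
  exact h.nn s

theorem Cut.bd {k : ℝ → ℝ} (h : Cut k) : ∃ L : ℝ, ∀ r, |deriv k r| ≤ L ∧ |r * deriv k r| ≤ L := by
  obtain ⟨a, b, ha, hab⟩ := h.supp
  have hc : Continuous (deriv k) := h.sm.continuous_deriv le_rfl
  obtain ⟨C, hC⟩ := (isCompact_Icc (a := a) (b := b)).exists_bound_of_continuousOn hc.continuousOn
  refine ⟨|C| * (1 + |b|), fun r => ?_⟩
  by_cases hr : r ≤ a ∨ b ≤ r
  · rw [h.deriv_zero (hab r hr), mul_zero, abs_zero]
    constructor <;> positivity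
  · rw [not_or, not_le, not_le] at hr
    have h1 : |deriv k r| ≤ |C| := (hC r ⟨hr.1.le, hr.2.le⟩).trans (le_abs_self C)
    have h2 : |r| ≤ |b| := abs_le_abs hr.2.le (by linarith [hr.1, hr.2])
    have h3 := abs_nonneg b
    have h4 := abs_nonneg C
    have h5 := mul_le_mul h2 h1 (abs_nonneg _) h3
    rw [abs_mul]
    constructor <;> nlinarith

theorem Cut.hasDerivAt {k : ℝ → ℝ} (h : Cut k) (r : ℝ) : HasDerivAt k (deriv k r) r := by
  exact (h.sm.differentiable (by simp) r).hasDerivAt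

end Vale.Agent.P098.SE
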