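import Vale.Agent.P098.S1.Iface
import Vale.Agent.P098.S1.Euler

/-!
P098 S1/E/Defs (owner helper14, no task): definitions for the integral argument.
Notation in the headers of this folder: Om = {x | 0 < u x}, p = gradient u, m = mc u, r = ‖x‖, Th = φ + ε, lam = (d-2)²/4.
-/

open MeasureTheory Filter Topology Set Metric
open scoped ContDiff RealInnerProductSpace NNReal

set_option maxSynthPendingDepth 3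

noncomputable section

namespace Vale.Agent.P098.SE

variable {d : ℕ}

/-- Radial cutoffs. -/
structure Cut (k : ℝ → ℝ) : Prop where
  sm : ContDiff ℝ 1 k
  nn : ∀ r, 0 ≤ k r
  le : ∀ r, k r ≤ 1
  supp : ∃ a b : ℝ, 0 < a ∧ ∀ r, r ≤ a ∨ b ≤ r → k r = 0

/-- The test function. -/
def psi (φ : E d → ℝ) (al ε : ℝ) (k : ℝ → ℝ) (x : E d) : ℝ :=
  k ‖x‖ * ‖x‖ ^ (-((d : ℝ) - 2) / 2) * (φ x + ε) ^ (al / 2)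

/-- The vector field. -/
def zed (φ : E d → ℝ) (Y : E d → E d) (al ε : ℝ) (k : ℝ → ℝ) (x : E d) : E d :=
  (k ‖x‖ ^ 2 * ‖x‖ ^ (1 - (d : ℝ)) * (φ x + ε) ^ (al - 1)) • Y x

/-- The tangential vector. -/
def wv (φ : E d → ℝ) (al ε : ℝ) (x : E d) : E d := (al / 2 * ‖x‖ / (φ x + ε)) • gradient φ x

/-- The gain. -/
def gain (φ : E d → ℝ) (al del ε : ℝ) (x : E d) : ℝ :=
  (φ x + ε) ^ (al - 1) * (del * φ x - ((d : ℝ) - 2) ^ 2 / 4 * ε)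

/-- The main radial weight. -/
def w1 (d : ℕ) (k : ℝ → ℝ) (r : ℝ) : ℝ := (r ^ d)⁻¹ * k r ^ 2

/-- The radial weight of the errors. -/
def w2 (d : ℕ) (k : ℝ → ℝ) (r : ℝ) : ℝ := (r ^ d)⁻¹ * (|r * deriv k r| + (r * deriv k r) ^ 2)

/-- All that is used about `φ` and `Y`. -/
structure Ab (u φ : E d → ℝ) (Y : E d → E d) (al del : ℝ) : Prop where
  cone : Cone u
  al_pos : 0 < al
  al_lt : al < 1
  del_pos : 0 < del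
  sφ : ∀ x, 0 < u x → ContDiffAt ℝ 1 φ x
  sY : ∀ x, 0 < u x → ContDiffAt ℝ 1 Y x
  sm : ∀ x, 0 < u x → ContDiffAt ℝ 1 (mc u) x
  hom : ∀ r : ℝ, 0 < r → ∀ x, φ (r • x) = φ x
  nn : ∀ x, 0 < u x → 0 ≤ φ x
  bφ : ∃ C : ℝ, ∀ x, 0 < u x → |φ x| ≤ C ∧ ‖x‖ * ‖fderiv ℝ φ x‖ ≤ C
  bY : ∃ C : ℝ, ∀ x, 0 < u x → ‖Y x‖ ≤ C
  bm : ∃ C : ℝ, ∀ x, 0 < u x → ‖x‖ * |mc u x| ≤ C ∧ ‖x‖ ^ 2 * ‖fderiv ℝ (mc u) x‖ ≤ C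
  grad : ∀ x, 0 < u x → ‖gradient u x‖ ≤ 1
  bdry : ∀ η : ℝ, 0 < η → ∀ a b : ℝ, 0 < a → ∃ δ : ℝ, 0 < δ ∧
    ∀ x, a ≤ ‖x‖ → ‖x‖ ≤ b → 0 < u x → u x < δ →
      -η ≤ ⟪Y x, gradient u x⟫ - ‖x‖ * mc u x * φ x ∧ mc u x ≤ η ∧ |‖gradient u x‖ - 1| ≤ η
  key : ∀ x, 0 < u x → ∀ w : E d, ⟪w, x⟫ = 0 →
    (((d : ℝ) - 2) ^ 2 / 4 + del) * φ x ≤
      ‖x‖ * dvg Y x - ((d : ℝ) - 1) * (⟪Y x, x⟫ / ‖x‖) + (2 - 2 / al) * ⟪w, Y x⟫ -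
        ‖x‖ * fderiv ℝ φ x w + (2 / al - 1) * φ x * ‖w‖ ^ 2

end Vale.Agent.P098.SE
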