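import Vale.Agent.P098.S1.E.Calc

/-!
P098 S1/E/Flux (TASK): the divergence theorem with a sign.  Prefix helper names by `flux_`.
`integral_dvg`: for each `i`, `∫ fderiv (fun y => F y i) x (bv i) = 0` (`integral_mul_fderiv_eq_neg_fderiv_mul_of_integrable` with the constant `1`, or `integral_bilinear_hasLineDerivAt_right_eq_neg_left_of_integrable`); continuity and compact support give integrability.
`flux1`: `ζ s = Real.smoothTransition (2 * s - 1)` (zero for `s ≤ 1/2`, one for `1 ≤ s`, monotone so `deriv ζ ≥ 0`, `deriv ζ s = 0` for `s > 1`).  For `0 < t < δ` put `F y = ζ (u y / t) • W y`: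
it is `C¹` everywhere (if `u x < t/2` it vanishes near `x`, otherwise `0 < u x`), vanishes for `b ≤ ‖x‖`; on Om `dvg F = ζ * dvg W + deriv ζ (u/t) / t * ⟪W, p⟫ ≥ ζ * g` (`dvg_smul`, `inner_grad`), off Om `dvg F = 0`.
So `∫ x in Om, ζ (u x / t) * g x ≤ 0`; let `t = δ / (n + 2)`, `tendsto_integral_of_dominated_convergence` with bound `‖g‖` (for each `x` in Om the sequence is eventually `g x`).
-/

open MeasureTheory Filter Topology Set Metric
open scoped ContDiff RealInnerProductSpace NNReal

set_option maxSynthPendingDepth 3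

noncomputable section

namespace Vale.Agent.P098.SE

variable {d : ℕ}

theorem integral_dvg {F : E d → E d} (hF : ContDiff ℝ 1 F) (hc : HasCompactSupport F) :
    Integrable (dvg F) ∧ ∫ x, dvg F x = 0 := by
  have h1 : ∀ v : E d, Integrable fun x => fderiv ℝ F x v := fun v =>
    ((hF.continuous_fderiv one_ne_zero).clm_apply continuous_const).integrable_of_hasCompactSupport
      (hc.fderiv_apply ℝ v)
  have h2 : ∀ v : E d, ∫ x, fderiv ℝ F x v = 0 := by
    intro v
    have := integral_smul_fderiv_eq_neg_fderiv_smul_of_integrable (μ := volume)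
      (f := fun _ : E d => (1 : ℝ)) (g := F) (v := v) (by simp) (by simpa using h1 v)
      (by simpa using hF.continuous.integrable_of_hasCompactSupport hc)
      (fun x _ => differentiableAt_const _) (fun x _ => hF.differentiable one_ne_zero x)
    simpa using this
  have h3 : ∀ i : Fin d, Integrable fun x => fderiv ℝ F x (bv i) i := fun i =>
    (EuclideanSpace.proj i : E d →L[ℝ] ℝ).integrable_comp (h1 (bv i))
  have h4 : ∀ i : Fin d, ∫ x, fderiv ℝ F x (bv i) i = 0 := by
    intro i
    have := (EuclideanSpace.proj i : E d →L[ℝ] ℝ).integral_comp_comm (h1 (bv i))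
    rw [h2, map_zero] at this
    exact this
  refine ⟨integrable_finsetSum Finset.univ fun i _ => h3 i, ?_⟩
  simp only [dvg]
  rw [integral_finsetSum Finset.univ fun i _ => h3 i]
  exact Finset.sum_eq_zero fun i _ => h4 i

/-- The cutoff. -/
def flux_z (s : ℝ) : ℝ := Real.smoothTransition (2 * s - 1)

theorem flux_z_cd : ContDiff ℝ 1 flux_z := Real.smoothTransition.contDiff.comp (by fun_prop)

theorem flux_z_zero {s : ℝ} (h : s ≤ 1 / 2) : flux_z s = 0 :=
  Real.smoothTransition.zero_of_nonpos (by linarith)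

theorem flux_z_one {s : ℝ} (h : 1 ≤ s) : flux_z s = 1 :=
  Real.smoothTransition.one_of_one_le (by linarith)

theorem flux_z_deriv (s : ℝ) : 0 ≤ deriv flux_z s := by
  have : Monotone flux_z := fun a b h => Real.smoothTransition.monotone (by linarith)
  exact this.deriv_nonneg

theorem flux_z_deriv0 {s : ℝ} (h : 1 < s) : deriv flux_z s = 0 := by
  have : flux_z =ᶠ[𝓝 s] fun _ => 1 := (eventually_gt_nhds h).mono fun _ h' => flux_z_one h'.le
  rw [this.deriv_eq, deriv_const]

theorem flux_z_abs (s : ℝ) : ‖flux_z s‖ ≤ 1 := by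
  rw [flux_z, Real.norm_of_nonneg (Real.smoothTransition.nonneg _)]
  exact Real.smoothTransition.le_one _

theorem flux_step {u : E d → ℝ} (hc : Continuous u) (hn : ∀ x, 0 ≤ u x)
    (hs : ∀ x, 0 < u x → ContDiffAt ℝ 1 u x) {W : E d → E d} {g : E d → ℝ}
    (hW : ∀ x, 0 < u x → ContDiffAt ℝ 1 W x) {b : ℝ} (h0 : ∀ x, 0 < u x → b ≤ ‖x‖ → W x = 0)
    (hg : IntegrableOn g {x | 0 < u x}) (hle : ∀ x, 0 < u x → g x ≤ dvg W x) {δ : ℝ}
    (hb : ∀ x, 0 < u x → u x < δ → 0 ≤ ⟪W x, gradient u x⟫) {t : ℝ} (ht : 0 < t) (htδ : t < δ) :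
    ∫ x in {x | 0 < u x}, flux_z (u x / t) * g x ≤ 0 := by
  have hO : MeasurableSet {x | 0 < u x} := (isOpen_lt continuous_const hc).measurableSet
  have hz : ∀ x, u x < t / 2 → (fun y => flux_z (u y / t) • W y) =ᶠ[𝓝 x] fun _ => 0 := by
    intro x hx
    filter_upwards [(isOpen_lt hc continuous_const).mem_nhds hx] with y hy
    have : u y / t ≤ 1 / 2 := by
      rw [div_le_iff₀ ht]
      have hy' : u y < t / 2 := hy
      linarith
    rw [flux_z_zero this, zero_smul]
  have ha : ∀ x, 0 < u x → ContDiffAt ℝ 1 (fun y => flux_z (u y / t)) x := fun x hx =>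
    flux_z_cd.contDiffAt.comp x ((hs x hx).div_const t)
  have hF : ContDiff ℝ 1 fun y => flux_z (u y / t) • W y := by
    refine contDiff_iff_contDiffAt.2 fun x => ?_
    rcases lt_or_ge (u x) (t / 2) with hx | hx
    · exact contDiffAt_const.congr_of_eventuallyEq (hz x hx)
    · have hx' : 0 < u x := by linarith
      exact (ha x hx').smul (hW x hx')
  have hK : HasCompactSupport fun y => flux_z (u y / t) • W y := by
    refine HasCompactSupport.intro (isCompact_closedBall (0 : E d) b) fun x hx => ?_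
    rcases (hn x).eq_or_lt with h1 | h1
    · exact (hz x (by linarith)).self_of_nhds
    · rw [mem_closedBall_zero_iff, not_le] at hx
      rw [h0 x h1 hx.le, smul_zero]
  obtain ⟨i1, i2⟩ := integral_dvg hF hK
  have i3 : ∫ x in {x | 0 < u x}, dvg (fun y => flux_z (u y / t) • W y) x = 0 := by
    refine (setIntegral_eq_integral_of_forall_compl_eq_zero fun x hx => ?_).trans i2
    have h1 : u x < t / 2 := by
      have : u x ≤ 0 := not_lt.1 hx
      linarith
    simp only [dvg, (hz x h1).fderiv_eq, fderiv_fun_const, Pi.zero_apply, zero_apply,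
      PiLp.zero_apply, Finset.sum_const_zero]
  refine (setIntegral_mono_on (Integrable.bdd_mul (c := 1) hg
    (flux_z_cd.continuous.comp (hc.div_const t)).aestronglyMeasurable
    (Eventually.of_forall fun x => flux_z_abs _)) i1.integrableOn hO fun x hx => ?_).trans i3.le
  show flux_z (u x / t) * g x ≤ _
  have hx' : 0 < u x := hx
  have d1 : HasFDerivAt (fun y => flux_z (u y / t))
      (deriv flux_z (u x / t) • (t⁻¹ • fderiv ℝ u x)) x := by
    have d2 : HasFDerivAt (fun y => u y / t) (t⁻¹ • fderiv ℝ u x) x := by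
      simpa only [div_eq_inv_mul] using
        ((hs x hx').differentiableAt one_ne_zero).hasFDerivAt.const_mul t⁻¹
    exact (flux_z_cd.differentiable one_ne_zero _).hasDerivAt.comp_hasFDerivAt x d2
  rw [dvg_smul d1.differentiableAt ((hW x hx').differentiableAt one_ne_zero), d1.fderiv]
  have h2 : flux_z (u x / t) * g x ≤ flux_z (u x / t) * dvg W x :=
    mul_le_mul_of_nonneg_left (hle x hx') (Real.smoothTransition.nonneg _)
  have h3 : 0 ≤ (deriv flux_z (u x / t) • (t⁻¹ • fderiv ℝ u x)) (W x) := by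
    rw [smul_apply, smul_apply, smul_eq_mul, smul_eq_mul, ← inner_grad, real_inner_comm]
    rcases lt_or_ge (u x) δ with h4 | h4
    · exact mul_nonneg (flux_z_deriv _) (mul_nonneg (inv_pos.2 ht).le (hb x hx' h4))
    · rw [flux_z_deriv0 ((one_lt_div ht).2 (by linarith)), zero_mul]
  linarith

theorem flux1 {u : E d → ℝ} (hc : Continuous u) (hn : ∀ x, 0 ≤ u x)
    (hs : ∀ x, 0 < u x → ContDiffAt ℝ 1 u x) {W : E d → E d} {g : E d → ℝ}
    (hW : ∀ x, 0 < u x → ContDiffAt ℝ 1 W x) {b : ℝ} (h0 : ∀ x, 0 < u x → b ≤ ‖x‖ → W x = 0)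
    (hg : IntegrableOn g {x | 0 < u x}) (hle : ∀ x, 0 < u x → g x ≤ dvg W x) {δ : ℝ} (hδ : 0 < δ)
    (hb : ∀ x, 0 < u x → u x < δ → 0 ≤ ⟪W x, gradient u x⟫) :
    ∫ x in {x | 0 < u x}, g x ≤ 0 := by
  have hO : MeasurableSet {x | 0 < u x} := (isOpen_lt continuous_const hc).measurableSet
  have h1 : Tendsto (fun n : ℕ => ∫ x in {x | 0 < u x}, flux_z (u x / (δ / (n + 2))) * g x) atTop
      (𝓝 (∫ x in {x | 0 < u x}, g x)) := by
    refine tendsto_integral_of_dominated_convergence (fun x => ‖g x‖) (fun n => ?_) hg.norm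
      (fun n => Eventually.of_forall fun x => ?_) ?_
    · exact (flux_z_cd.continuous.comp (hc.div_const _)).aestronglyMeasurable.mul
        hg.aestronglyMeasurable
    · rw [norm_mul]
      exact mul_le_of_le_one_left (norm_nonneg _) (flux_z_abs _)
    · filter_upwards [ae_restrict_mem hO] with x hx
      have hx' : 0 < u x := hx
      obtain ⟨N, hN⟩ := exists_nat_gt (δ / u x)
      refine tendsto_const_nhds.congr' ?_
      filter_upwards [eventually_ge_atTop N] with n hn'
      have h2 : (N : ℝ) ≤ n := Nat.cast_le.2 hn'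
      have h3 : 1 ≤ u x / (δ / (n + 2)) := by
        rw [one_le_div (by positivity), div_le_iff₀ (by positivity)]
        rw [div_lt_iff₀ hx'] at hN
        nlinarith
      rw [flux_z_one h3, one_mul]
  refine le_of_tendsto' h1 fun n => flux_step hc hn hs hW h0 hg hle hb (by positivity) ?_
  refine div_lt_self hδ ?_
  have : (0 : ℝ) ≤ n := Nat.cast_nonneg n
  linarith

end Vale.Agent.P098.SE
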