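import Vale.Agent.P098.S1.E.Hom

/-!
P098 S1/E/Grad (TASK): the gradient bound.  Prefix helper names by `grad_`.
`grad_second`: if `c > 0` then `isLocalMin_of_deriv_deriv_pos`-type reasoning makes `f` locally constant, contradiction; or directly: `f' 0 = 0` (`IsLocalMax.hasDerivAt_eq_zero`), `f' > 0` on `(0, s)`, `f` strictly increasing there.
`grad_le_one`: suppose `‖p x₀‖ > 1`; put `e = p x₀ / ‖p x₀‖`, choose `ε > 0`, `η > 0` with `F x₀ > 1 + η` for `F x = ⟪p x, e⟫ - ε * (u x / ‖x‖)`; `F` is 0-homogeneous (`fderiv_hom`, `Hom`).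
`h.bc η 1 1` gives `δ` with `F ≤ ‖p‖ ≤ 1 + η` on `{‖x‖ = 1, 0 < u < δ}`.  On the compact set `K = {‖x‖ = 1, δ ≤ u x}` (contains `x₀/‖x₀‖`) `F` is continuous and has a maximum point `z`, `M = F z > 1 + η`; so `F ≤ M` on all of Om.
With `q x = fderiv u x e - M` this reads `q x * ‖x‖ - ε * u x ≤ 0` on Om (open) with equality at `z`, `q z = ε u z > 0`.
For each `i` the function `t ↦ q (z + t • bv i) * ‖z + t • bv i‖ - ε * u (z + t • bv i)` has a local max at `0`, `‖z + t • bv i‖ = √(1 + 2 t z i + t²)`; `grad_second` gives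
`D3 u z (bv i) (bv i) e + 2 * D2 u z (bv i) e * z i + q z * (1 - z i ^ 2) - ε * D2 u z (bv i) (bv i) ≤ 0`.
Sum over `i`: `s1_hj` (`s3`, `s3'`, `t3`, `t2`), `s1_euler2` with `sum_bv`, `∑ z i ^ 2 = 1` give `q z * (d - 1) ≤ 0`, contradiction.
-/

open MeasureTheory Filter Topology Set Metric
open scoped ContDiff RealInnerProductSpace NNReal

set_option maxSynthPendingDepth 3

noncomputable section

namespace Vale.Agent.P098.SE

variable {d : ℕ}

theorem grad_second {f f' : ℝ → ℝ} {c : ℝ} (hm : IsLocalMax f 0)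
    (h1 : ∀ᶠ t in 𝓝 (0 : ℝ), HasDerivAt f (f' t) t) (h2 : HasDerivAt f' c 0) : c ≤ 0 := by
  by_contra hc
  have e : deriv f =ᶠ[𝓝 0] f' := h1.mono fun t ht => ht.deriv
  have h3 := isLocalMin_of_deriv_deriv_pos (f := f) (x₀ := 0)
    (by rw [e.deriv_eq, h2.deriv]; exact not_le.1 hc) hm.deriv_eq_zero h1.self_of_nhds.continuousAt
  have h4 : f =ᶠ[𝓝 0] fun _ => f 0 := (Eventually.and hm h3).mono fun t ht => le_antisymm ht.1 ht.2
  have h5 := (e.symm.trans h4.deriv).deriv_eq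
  rw [h2.deriv] at h5
  simp [h5] at hc

theorem grad_line {q q1 a a1 : ℝ → ℝ} {q2 a2 z ε : ℝ}
    (hq : ∀ᶠ t in 𝓝 (0 : ℝ), HasDerivAt q (q1 t) t) (hq2 : HasDerivAt q1 q2 0)
    (ha : ∀ᶠ t in 𝓝 (0 : ℝ), HasDerivAt a (a1 t) t) (ha2 : HasDerivAt a1 a2 0)
    (hm : IsLocalMax (fun t => q t * √(1 + 2 * t * z + t ^ 2) - ε * a t) 0) :
    q2 + 2 * (q1 0 * z) + q 0 * (1 - z ^ 2) - ε * a2 ≤ 0 := by
  have hP : ∀ t : ℝ, HasDerivAt (fun t : ℝ => 1 + 2 * t * z + t ^ 2) (2 * z + 2 * t) t := fun t =>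
    (((((hasDerivAt_id t).const_mul 2).mul_const z).const_add 1).fun_add
      (hasDerivAt_pow 2 t)).congr_deriv (by simp)
  have h0 : ∀ᶠ t in 𝓝 (0 : ℝ), 1 + 2 * t * z + t ^ 2 ≠ 0 :=
    (hP 0).continuousAt.eventually_ne (by simp)
  have hN := (hP 0).sqrt h0.self_of_nhds
  have hN2 := (((hasDerivAt_id (0 : ℝ)).const_mul 2).const_add (2 * z)).fun_div (hN.const_mul 2)
    (by simp)
  have key := grad_second hm (f' := fun t => q1 t * √(1 + 2 * t * z + t ^ 2) +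
      q t * ((2 * z + 2 * t) / (2 * √(1 + 2 * t * z + t ^ 2))) - ε * a1 t) (by
    filter_upwards [hq, ha, h0] with t h1 h2 h3
    exact (h1.fun_mul ((hP t).sqrt h3)).fun_sub (h2.const_mul ε))
    (((hq2.fun_mul hN).fun_add (hq.self_of_nhds.fun_mul hN2)).fun_sub (ha2.const_mul ε))
  refine le_of_eq_of_le ?_ key
  simp
  ring

theorem grad_norm {z : E d} (hz : ‖z‖ = 1) (i : Fin d) (t : ℝ) :
    ‖z + t • bv i‖ = √(1 + 2 * t * z i + t ^ 2) := by
  rw [← Real.sqrt_sq (norm_nonneg (z + t • bv i)), norm_add_sq_real, hz, inner_smul_right,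
    norm_smul]
  simp [bv, EuclideanSpace.inner_single_right, mul_assoc]

theorem grad_dir {u : E d → ℝ} (h : PreCone u) {z e : E d} {M ε : ℝ} (hz : ‖z‖ = 1) (hu : 0 < u z)
    (hle : ∀ x, 0 < u x → (fderiv ℝ u x e - M) * ‖x‖ - ε * u x ≤ 0)
    (heq : fderiv ℝ u z e - M - ε * u z = 0) (i : Fin d) :
    D3 u z (bv i) (bv i) e + 2 * (D2 u z (bv i) e * z i) + (fderiv ℝ u z e - M) * (1 - z i ^ 2) -
      ε * D2 u z (bv i) (bv i) ≤ 0 := by
  have hγ : ∀ t : ℝ, HasDerivAt (fun t : ℝ => z + t • bv i) (bv i) t := fun t => by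
    simpa using ((hasDerivAt_id t).smul_const (bv i)).const_add z
  have h0 : 0 < u (z + (0 : ℝ) • bv i) := by simpa using hu
  have hev : ∀ᶠ t : ℝ in 𝓝 0, 0 < u (z + t • bv i) :=
    ((pc_cont h).continuousAt.comp (hγ 0).continuousAt).eventually_const_lt h0
  have d1 : ∀ (w : E d) (t : ℝ), 0 < u (z + t • bv i) →
      HasDerivAt (fun t : ℝ => fderiv ℝ u (z + t • bv i) w) (D2 u (z + t • bv i) (bv i) w) t :=
    fun w t ht => (ContinuousLinearMap.apply ℝ ℝ w).hasFDerivAt.comp_hasDerivAt t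
      ((s1e_d1 (s1e_le (h.harm _ ht).1 2)).hasFDerivAt.comp_hasDerivAt t (hγ t))
  obtain ⟨L, hL⟩ := s1e_ev2 (bv i) e
  have d2 := L.hasFDerivAt.comp_hasDerivAt 0
    ((s1e_d2 (s1e_le (h.harm _ h0).1 3)).hasFDerivAt.comp_hasDerivAt 0 (hγ 0))
  simp only [Function.comp_def, hL] at d2
  have key := grad_line (q := fun t => fderiv ℝ u (z + t • bv i) e - M)
    (a := fun t => u (z + t • bv i)) (z := z i) (ε := ε)
    (hev.mono fun t ht => (d1 e t ht).sub_const M) d2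
    (hev.mono fun t ht =>
      ((h.harm _ ht).1.differentiableAt (by simp)).hasFDerivAt.comp_hasDerivAt t (hγ t))
    (d1 (bv i) 0 h0) (hev.mono fun t ht => by
      have h1 := hle _ ht
      rw [grad_norm hz] at h1
      simpa [heq] using h1)
  simpa only [zero_smul, add_zero, D3] using key

theorem grad_sum (hd : 2 ≤ d) {u : E d → ℝ} (h : PreCone u) {z e : E d} {M ε : ℝ} (hz : ‖z‖ = 1)
    (hu : 0 < u z) (hle : ∀ x, 0 < u x → (fderiv ℝ u x e - M) * ‖x‖ - ε * u x ≤ 0)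
    (heq : fderiv ℝ u z e - M - ε * u z = 0) : ε ≤ 0 := by
  have hj := s1_hj (pc_open h) h.harm hu
  have h1 := Finset.sum_nonpos fun i (_ : i ∈ Finset.univ) => grad_dir h hz hu hle heq i
  have e1 : ∑ i, D3 u z (bv i) (bv i) e = 0 :=
    (Finset.sum_congr rfl fun i _ => (hj.s3' _ _ _).trans (hj.s3 _ _ _)).trans (hj.t3 e)
  have e2 : ∑ i, D2 u z (bv i) e * z i = 0 := by
    have h2 := congrArg (· e) (s1_euler2 h.hom (h.harm z hu).1)
    rw [← congrArg (D2 u z) (sum_bv z)] at h2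
    simpa [mul_comm] using h2
  have e3 : ∑ i, z i ^ 2 = 1 := by
    rw [← EuclideanSpace.real_norm_sq_eq, hz, one_pow]
  have e4 : ∑ i, D2 u z (bv i) (bv i) = 0 := hj.t2
  simp only [Finset.sum_add_distrib, Finset.sum_sub_distrib, ← Finset.mul_sum, e1, e2, e3, e4,
    Finset.sum_const, Finset.card_univ, Fintype.card_fin, nsmul_eq_mul] at h1
  have h3 : (2 : ℝ) ≤ d := by exact_mod_cast hd
  by_contra hε
  have h4 := mul_pos (mul_pos (not_le.1 hε) hu) (by linarith : (0 : ℝ) < d - 1)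
  rw [sub_eq_zero.1 heq] at h1
  linarith

theorem grad_le_one (hd : 2 ≤ d) {u : E d → ℝ} (h : PreCone u) :
    ∀ x, 0 < u x → ‖gradient u x‖ ≤ 1 := by
  have nrm : ∀ x, 0 < u x → ‖‖x‖⁻¹ • x‖ = 1 ∧ 0 < u (‖x‖⁻¹ • x) ∧
      fderiv ℝ u (‖x‖⁻¹ • x) = fderiv ℝ u x := fun x hx => by
    have h1 := norm_pos_iff.2 (pc_ne h hx)
    exact ⟨by rw [norm_smul, norm_inv, norm_norm, inv_mul_cancel₀ h1.ne'],
      (pc_smul h (inv_pos.2 h1) x).2 hx, fderiv_hom h.hom (inv_pos.2 h1) x⟩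
  intro x₀ hx₀
  by_contra hlt
  obtain ⟨k1, k2, k3⟩ := nrm x₀ hx₀
  rw [norm_grad, ← k3, ← norm_grad, not_le] at hlt
  generalize ‖x₀‖⁻¹ • x₀ = x at k1 k2 hlt
  obtain ⟨e, he1, he2⟩ : ∃ e : E d, ‖e‖ = 1 ∧ fderiv ℝ u x e = ‖gradient u x‖ := by
    have h1 : ‖gradient u x‖ ≠ 0 := by positivity
    refine ⟨‖gradient u x‖⁻¹ • gradient u x,
      by rw [norm_smul, norm_inv, norm_norm, inv_mul_cancel₀ h1], ?_⟩
    rw [← inner_grad, inner_smul_right, real_inner_self_eq_norm_sq]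
    field_simp
  obtain ⟨η, hη, e1⟩ : ∃ η : ℝ, 0 < η ∧ ‖gradient u x‖ = 1 + 3 * η :=
    ⟨(‖gradient u x‖ - 1) / 3, by linarith, by ring⟩
  obtain ⟨ε, hε, e2⟩ : ∃ ε : ℝ, 0 < ε ∧ ε * u x = η := ⟨η / u x, by positivity, by field_simp⟩
  obtain ⟨δ, hδ, hb⟩ := h.bc η hη 1 1 one_pos
  have small : ∀ y, ‖y‖ = 1 → 0 < u y → u y < δ → fderiv ℝ u y e - ε * u y ≤ 1 + η := by
    intro y h1 h2 h3
    have h4 := (abs_le.1 (hb y h1.ge h1.le h2 h3).g1).2
    have h5 := real_inner_le_norm (gradient u y) e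
    rw [inner_grad, he1] at h5
    linarith [mul_pos hε h2]
  have hK : IsCompact (sphere (0 : E d) 1 ∩ {y | δ ≤ u y}) :=
    (isCompact_sphere _ _).inter_right (isClosed_le continuous_const (pc_cont h))
  have hx : x ∈ sphere (0 : E d) 1 ∩ {y | δ ≤ u y} :=
    ⟨mem_sphere_zero_iff_norm.2 k1, not_lt.1 fun h3 => by linarith [small x k1 k2 h3]⟩
  obtain ⟨z, hz, hmax⟩ := hK.exists_isMaxOn ⟨x, hx⟩ (f := fun y => fderiv ℝ u y e - ε * u y)
    fun y hy => (((s1e_d1 (s1e_le (h.harm y (hδ.trans_le hy.2)).1 2)).continuousAt.clm_apply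
      continuousAt_const).sub (continuousAt_const.mul (pc_cont h).continuousAt)).continuousWithinAt
  have hM : fderiv ℝ u x e - ε * u x ≤ fderiv ℝ u z e - ε * u z := hmax hx
  refine absurd (grad_sum hd h (M := fderiv ℝ u z e - ε * u z) (e := e)
    (mem_sphere_zero_iff_norm.1 hz.1) (hδ.trans_le hz.2) (fun y hy => ?_) (by ring)) (not_le.2 hε)
  obtain ⟨m1, m2, m3⟩ := nrm y hy
  have h1 := norm_pos_iff.2 (pc_ne h hy)
  have h2 : fderiv ℝ u (‖y‖⁻¹ • y) e - ε * u (‖y‖⁻¹ • y) ≤ fderiv ℝ u z e - ε * u z := by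
    rcases lt_or_ge (u (‖y‖⁻¹ • y)) δ with h3 | h3
    · linarith [small _ m1 m2 h3]
    · exact hmax ⟨mem_sphere_zero_iff_norm.2 m1, h3⟩
  rw [m3, h.hom _ (inv_pos.2 h1)] at h2
  have h4 := mul_le_mul_of_nonneg_right h2 h1.le
  have h5 : ε * (‖y‖⁻¹ * u y) * ‖y‖ = ε * u y := by field_simp
  linarith

end Vale.Agent.P098.SE
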