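import Vale.Agent.P098.S1.E.Calc

/-!
P098 S1/E/Hom: homogeneity of the jets (valid at every point, no smoothness needed).  Prefix `hom_`.
`fderiv_comp_smul` (`fderiv (fun x => f (c • x)) x = c • fderiv f (c • x)`) and `fderiv_const_smul_field` / `fderiv_fun_const_smul`-type lemmas without differentiability.
-/

open MeasureTheory Filter Topology Set Metric
open scoped ContDiff RealInnerProductSpace NNReal

set_option maxSynthPendingDepth 3

noncomputable section

namespace Vale.Agent.P098.SE

variable {d : ℕ}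

variable {u : E d → ℝ}

theorem fderiv_hom (h : Hom u) {r : ℝ} (hr : 0 < r) (x : E d) :
    fderiv ℝ u (r • x) = fderiv ℝ u x := by
  have h1 : (fun y => u (r • y)) = r • u := funext fun y => h r hr y
  have h2 := fderiv_comp_smul (𝕜 := ℝ) (f := u) (x := x) r
  rw [h1, fderiv_const_smul_field] at h2
  exact (smul_right_injective _ hr.ne' h2).symm

theorem D2_hom (h : Hom u) {r : ℝ} (hr : 0 < r) (x : E d) : r • D2 u (r • x) = D2 u x := by
  have h1 : (fun y => fderiv ℝ u (r • y)) = fderiv ℝ u := funext fun y => fderiv_hom h hr y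
  have h2 := fderiv_comp_smul (𝕜 := ℝ) (f := fderiv ℝ u) (x := x) r
  rw [h1] at h2
  exact h2.symm

theorem phiOf_hom (Φ : E d × ℝ × B2 d → ℝ) (h : Hom u) {r : ℝ} (hr : 0 < r) (x : E d) :
    phiOf Φ u (r • x) = phiOf Φ u x := by
  have h1 : gradient u (r • x) = gradient u x := by rw [gradient, gradient, fderiv_hom h hr]
  rw [phiOf, phiOf, h1, h r hr, norm_smul, Real.norm_of_nonneg hr.le, mul_div_mul_left _ _ hr.ne',
    mul_comm r, mul_smul, D2_hom h hr]

end Vale.Agent.P098.SE
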