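import Vale.Agent.P098.S1.E.Calc

/-!
P098 S1/E/Jet (TASK): compactness in the space of jets.  Prefix helper names by `jet_`.
By contradiction take `ε = 1 / (n + 1)` and jets `j n = (θ, ν, r, S, T)` in a closed ball of the finite dimensional (proper) space `E d × E d × ℝ × B2 d × B3 d`; `tendsto_subseq_of_bounded`.
All conditions pass to the limit (`le_of_tendsto'`, `tendsto_nhds_unique`, `Tendsto.clm_apply`-type continuity: write each expression as a continuous function of the jet, `fun_prop` after `unfold tr sqf`).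
For the last condition and `v, w ⟂ ν` (limit, `‖ν‖ = 1`) use `v n = ‖ν n‖ ^ 2 • v - ⟪ν n, v⟫ • ν n ⟂ ν n`, `v n → v`.
The limit has `r = 0`, satisfies `SJ ν (0, innerSL ℝ ν, S, T)`, `θ ≠ 0`, `⟪θ, ν⟫ = 0`, `S θ = 0`, `S ν ν ≤ 0`; `c.bdry` contradicts `⟪..⟫ - .. ≤ -η` (continuity of `c.X`, `c.Φ`).
-/

open MeasureTheory Filter Topology Set Metric
open scoped ContDiff RealInnerProductSpace NNReal

set_option maxSynthPendingDepth 3

noncomputable section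

namespace Vale.Agent.P098.SE

variable {d : ℕ}

/-- tangential part -/
def jet_P (ν v : E d) : E d := ‖ν‖ ^ 2 • v - ⟪ν, v⟫ • ν

theorem jet_P_perp (ν v : E d) : ⟪ν, jet_P ν v⟫ = 0 := by
  rw [jet_P, inner_sub_right, inner_smul_right, inner_smul_right, real_inner_self_eq_norm_sq]
  ring

theorem jet_all {X ι : Type} [TopologicalSpace X] {p : ι → X → Prop}
    (h : ∀ i, IsClosed {x | p i x}) : IsClosed {x | ∀ i, p i x} := by
  rw [ofPred_forall]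
  exact isClosed_iInter h

theorem jet_and {X : Type} [TopologicalSpace X] {p q : X → Prop} (hp : IsClosed {x | p x})
    (hq : IsClosed {x | q x}) : IsClosed {x | p x ∧ q x} := hp.inter hq

/-- the space of parameters -/
abbrev jet_Z (d : ℕ) : Type := ℝ × E d × E d × ℝ × B2 d × B3 d

/-- the symmetry conditions -/
def jet_A (z : jet_Z d) : Prop :=
  (∀ v w, z.2.2.2.2.1 v w = z.2.2.2.2.1 w v) ∧ (∀ a v w, z.2.2.2.2.2 a v w = z.2.2.2.2.2 v a w) ∧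
    (∀ a v w, z.2.2.2.2.2 a v w = z.2.2.2.2.2 a w v) ∧ tr z.2.2.2.2.1 = 0 ∧
    (∀ a, tr (z.2.2.2.2.2 a) = 0) ∧ ‖z.2.1‖ = 1 ∧ ⟪z.2.1, z.2.2.1⟫ = z.2.2.2.1 ∧
    ∀ v, z.2.2.2.2.1 z.2.1 v = 0

/-- the approximate conditions -/
def jet_B (z : jet_Z d) : Prop :=
  |‖z.2.2.1‖ - 1| ≤ z.1 ∧ |z.2.2.2.1| ≤ z.1 ∧ z.2.2.2.2.1 z.2.2.1 z.2.2.1 ≤ z.1 ∧
    (∀ v, |z.2.2.2.2.1 z.2.2.1 v - z.2.2.2.2.1 z.2.2.1 z.2.2.1 * ⟪z.2.2.1, v⟫| ≤ z.1 * ‖v‖) ∧
    ∀ v w, |z.2.2.2.2.2 z.2.2.1 (jet_P z.2.2.1 v) (jet_P z.2.2.1 w) +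
      sqf z.2.2.2.2.1 (jet_P z.2.2.1 v) (jet_P z.2.2.1 w) - z.2.2.2.2.1 z.2.2.1 z.2.2.1 *
        z.2.2.2.2.1 (jet_P z.2.2.1 v) (jet_P z.2.2.1 w)| ≤
          z.1 * ‖jet_P z.2.2.1 v‖ * ‖jet_P z.2.2.1 w‖

theorem jet_cA : IsClosed {z : jet_Z d | jet_A z} := by
  unfold jet_A tr
  refine jet_and (jet_all fun v => jet_all fun w => isClosed_eq ?_ ?_) (jet_and (jet_all fun a =>
    jet_all fun v => jet_all fun w => isClosed_eq ?_ ?_) (jet_and (jet_all fun a =>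
    jet_all fun v => jet_all fun w => isClosed_eq ?_ ?_) (jet_and (isClosed_eq ?_ ?_)
    (jet_and (jet_all fun a => isClosed_eq ?_ ?_) (jet_and (isClosed_eq ?_ ?_)
    (jet_and (isClosed_eq ?_ ?_) (jet_all fun v => isClosed_eq ?_ ?_))))))) <;> fun_prop

theorem jet_cB : IsClosed {z : jet_Z d | jet_B z} := by
  unfold jet_B sqf jet_P
  refine jet_and (isClosed_le ?_ ?_) (jet_and (isClosed_le ?_ ?_) (jet_and (isClosed_le ?_ ?_)
    (jet_and (jet_all fun v => isClosed_le ?_ ?_)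
    (jet_all fun v => jet_all fun w => isClosed_le ?_ ?_)))) <;> fun_prop

theorem jet_lim (c : Cert d) {z : jet_Z d} (hA : jet_A z) (hB : jet_B z) (h0 : z.1 ≤ 0) :
    0 ≤ ⟪c.X z.2.2, z.2.2.1⟫ -
      z.2.2.2.2.1 z.2.2.1 z.2.2.1 * c.Φ (z.2.2.1, z.2.2.2.1, z.2.2.2.2.1) := by
  obtain ⟨ε, θ, ν, r, S, T⟩ := z
  obtain ⟨a1, a2, a3, a4, a5, a6, a7, a8⟩ := hA
  obtain ⟨b1, b2, b3, b4, b5⟩ := hB
  dsimp only at *
  obtain rfl : ε = 0 := le_antisymm h0 ((abs_nonneg _).trans b2)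
  obtain rfl : r = 0 := abs_nonpos_iff.1 b2
  have n1 : ‖ν‖ = 1 := sub_eq_zero.1 (abs_nonpos_iff.1 b1)
  refine c.bdry θ ν S T (norm_ne_zero_iff.1 (by rw [a6]; exact one_ne_zero)) a7
    (ContinuousLinearMap.ext a8) ⟨⟨a1, a2, a3, a4, a5⟩, n1, rfl, fun _ => rfl, fun v => ?_,
      fun v w hv hw => ?_⟩ b3
  · exact sub_eq_zero.1 (abs_nonpos_iff.1 ((b4 v).trans_eq (zero_mul _)))
  · have := b5 v w
    simp only [jet_P, n1, hv, hw, one_pow, one_smul, zero_smul, sub_zero, zero_mul] at this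
    exact abs_nonpos_iff.1 this

theorem jet_cpt (c : Cert d) (C : ℝ) {η : ℝ} (hη : 0 < η) : ∃ ε : ℝ, 0 < ε ∧
    ∀ (θ ν : E d) (r : ℝ) (S : B2 d) (T : B3 d), ‖θ‖ = 1 → ⟪θ, ν⟫ = r → S θ = 0 →
      HJ (0, innerSL ℝ ν, S, T) → ‖S‖ ≤ C → ‖T‖ ≤ C → |‖ν‖ - 1| ≤ ε → |r| ≤ ε → S ν ν ≤ ε →
      (∀ v, |S ν v - S ν ν * ⟪ν, v⟫| ≤ ε * ‖v‖) →
      (∀ v w, ⟪ν, v⟫ = 0 → ⟪ν, w⟫ = 0 →
        |T ν v w + sqf S v w - S ν ν * S v w| ≤ ε * ‖v‖ * ‖w‖) →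
      -η ≤ ⟪c.X (ν, r, S, T), ν⟫ - S ν ν * c.Φ (ν, r, S) := by
  have hX := c.X_smooth.continuous
  have hΦ := c.Φ_smooth.continuous
  have hK : IsCompact (closedBall (0 : jet_Z d) (|C| + 2) ∩ {z | jet_A z ∧ jet_B z ∧
      ⟪c.X z.2.2, z.2.2.1⟫ - z.2.2.2.2.1 z.2.2.1 z.2.2.1 *
        c.Φ (z.2.2.1, z.2.2.2.1, z.2.2.2.2.1) ≤ -η}) :=
    (isCompact_closedBall _ _).inter_right (jet_and jet_cA (jet_and jet_cB
      (isClosed_le (by fun_prop) continuous_const)))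
  obtain ⟨ε, h0, h1⟩ := hK.exists_forall_le' (f := fun z => z.1) continuous_fst.continuousOn
    (a := 0) fun z hz => not_le.1 fun k => by linarith [jet_lim c hz.2.1 hz.2.2.1 k, hz.2.2.2]
  refine ⟨min (ε / 2) 1, by positivity, fun θ ν r S T a1 a2 a3 a4 a5 a6 b1 b2 b3 b4 b5 => ?_⟩
  by_contra hc
  have m1 := min_le_left (ε / 2) 1
  have m2 := min_le_right (ε / 2) 1
  have m0 : 0 < min (ε / 2) 1 := by positivity
  have c0 := abs_nonneg C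
  have c1 := le_abs_self C
  have := h1 (min (ε / 2) 1, θ, ν, r, S, T) ⟨?_, ⟨a4.s2, a4.s3, a4.s3', a4.t2, a4.t3, a1, a2,
    fun v => by simp [a3]⟩, ⟨b1, b2, b3, b4, fun v w => b5 _ _ (jet_P_perp _ _) (jet_P_perp _ _)⟩,
      (not_le.1 hc).le⟩
  · dsimp only at this
    linarith
  · simp only [mem_closedBall_zero_iff, norm_prod_le_iff, Real.norm_eq_abs, abs_of_pos m0]
    exact ⟨by linarith, by linarith, by linarith [(abs_le.1 b1).2], by linarith, by linarith,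
      by linarith⟩

end Vale.Agent.P098.SE
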