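import Vale.Agent.P098.S1.E.Calc

/-!
P098 S1/E/Pt1 (TASK): the gradient of the test function.  Prefix helper names by `pt1_`.
`norm_fderiv_psi`: with `κ s = k s * s ^ (-(d-2)/2)` and `Θ = Th ^ (al/2)`: `fderiv ψ x = (κ' Θ / r) • innerSL x + (κ (al/2) Th ^ (al/2 - 1)) • fderiv φ x` (`hasFDerivAt_rad`, `HasFDerivAt.rpow_const`).
Write it as `innerSL ℝ (A • x + B • gradient φ x)` (`inner_grad`, `innerSL_apply_norm`), expand the norm with `⟪gradient φ x, x⟫ = 0`; `(r ^ (-(d-2)/2)) ^ 2 = r ^ 2 * (r ^ d)⁻¹`, `(Th ^ (al/2)) ^ 2 = Th ^ al`, `Th ^ (al/2 - 1) = Th ^ (al/2) / Th`.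
`test_psi`: bounds from `psi_sq`, `norm_fderiv_psi` (`hom0_fderiv`, `Cut.bd`, `Cut.deriv_zero`): if `k r = 0` both vanish, otherwise `a < r < b`; `‖wv‖ ≤ al/2 * C / ε`, `Th ^ al ≤ (C + ε) ^ al`; use `abs_le_of_sq_le`-type lemmas or `t ≤ 1 + t²`.
`test_cut`: `hasFDerivAt_rad`, `contDiffAt_norm`.
-/

open MeasureTheory Filter Topology Set Metric
open scoped ContDiff RealInnerProductSpace NNReal

set_option maxSynthPendingDepth 3

noncomputable section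

namespace Vale.Agent.P098.SE

variable {d : ℕ}

variable {u φ : E d → ℝ} {Y : E d → E d} {al del ε : ℝ} {k : ℝ → ℝ} {x : E d}

theorem pt1_rsq {r : ℝ} (hr : 0 < r) (d : ℕ) :
    (r ^ (-((d : ℝ) - 2) / 2)) ^ 2 = r ^ 2 * (r ^ d)⁻¹ := by
  rw [← Real.rpow_natCast, ← Real.rpow_mul hr.le]
  have e : -((d : ℝ) - 2) / 2 * ((2 : ℕ) : ℝ) = ((2 : ℕ) : ℝ) - (d : ℝ) := by
    push_cast; ring
  rw [e, Real.rpow_sub hr, Real.rpow_natCast, Real.rpow_natCast, div_eq_mul_inv]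

theorem pt1_tsq {T : ℝ} (hT : 0 < T) (al : ℝ) : (T ^ (al / 2)) ^ 2 = T ^ al := by
  rw [← Real.rpow_natCast, ← Real.rpow_mul hT.le]
  have e : al / 2 * ((2 : ℕ) : ℝ) = al := by
    push_cast; ring
  rw [e]

theorem pt1_abs {t M : ℝ} (h : t ^ 2 ≤ M) : |t| ≤ 1 + M := by
  have h1 : |t| ^ 2 = t ^ 2 := sq_abs t
  nlinarith [abs_nonneg t, sq_nonneg (|t| - 1)]

theorem psi_sq (hx : x ≠ 0) (hT : 0 < φ x + ε) :
    psi φ al ε k x ^ 2 = k ‖x‖ ^ 2 * (‖x‖ ^ 2 * (‖x‖ ^ d)⁻¹) * (φ x + ε) ^ al := by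
  unfold psi
  rw [mul_pow, mul_pow, pt1_rsq (norm_pos_iff.2 hx), pt1_tsq hT]

theorem norm_fderiv_psi (hk : Cut k) (hx : x ≠ 0) (hφ : DifferentiableAt ℝ φ x)
    (h0 : fderiv ℝ φ x x = 0) (hT : 0 < φ x + ε) :
    ‖fderiv ℝ (psi φ al ε k) x‖ ^ 2 = (‖x‖ ^ d)⁻¹ * (φ x + ε) ^ al *
      ((‖x‖ * deriv k ‖x‖ - ((d : ℝ) - 2) / 2 * k ‖x‖) ^ 2 + k ‖x‖ ^ 2 * ‖wv φ al ε x‖ ^ 2) := by
  have hr : 0 < ‖x‖ := norm_pos_iff.2 hx
  have hκ : HasDerivAt (fun s : ℝ => k s * s ^ (-((d : ℝ) - 2) / 2))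
      (deriv k ‖x‖ * ‖x‖ ^ (-((d : ℝ) - 2) / 2) +
        k ‖x‖ * (-((d : ℝ) - 2) / 2 * ‖x‖ ^ (-((d : ℝ) - 2) / 2 - 1))) ‖x‖ :=
    (hk.hasDerivAt ‖x‖).mul (Real.hasDerivAt_rpow_const (Or.inl hr.ne'))
  have h1 := hasFDerivAt_rad hx hκ
  have h2 := (hφ.hasFDerivAt.add_const ε).rpow_const (p := al / 2) (Or.inl hT.ne')
  have h3 := (h1.mul h2).fderiv
  have h4 : fderiv ℝ (psi φ al ε k) x = innerSL ℝ
      (((φ x + ε) ^ (al / 2) * ((deriv k ‖x‖ * ‖x‖ ^ (-((d : ℝ) - 2) / 2) +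
        k ‖x‖ * (-((d : ℝ) - 2) / 2 * ‖x‖ ^ (-((d : ℝ) - 2) / 2 - 1))) / ‖x‖)) • x +
      (k ‖x‖ * ‖x‖ ^ (-((d : ℝ) - 2) / 2) * (al / 2 * (φ x + ε) ^ (al / 2 - 1))) •
        gradient φ x) := by
    refine Eq.trans h3 ?_
    ext v
    simp only [ContinuousLinearMap.add_apply, ContinuousLinearMap.smul_apply, innerSL_apply_apply,
      inner_add_left, real_inner_smul_left, inner_grad, smul_eq_mul]
    ring
  have h5 : ⟪x, gradient φ x⟫ = 0 := by rw [real_inner_comm, inner_grad, h0]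
  rw [h4, innerSL_apply_norm, norm_add_sq_real, real_inner_smul_left, real_inner_smul_right, h5,
    wv, norm_smul, norm_smul, norm_smul, mul_pow, mul_pow, mul_pow, Real.norm_eq_abs,
    Real.norm_eq_abs, Real.norm_eq_abs, sq_abs, sq_abs, sq_abs, Real.rpow_sub_one hr.ne',
    Real.rpow_sub_one hT.ne', ← pt1_tsq hT al]
  have h6 : (‖x‖ ^ d)⁻¹ = (‖x‖ ^ (-((d : ℝ) - 2) / 2)) ^ 2 / ‖x‖ ^ 2 := by
    rw [pt1_rsq hr]
    field_simp
  rw [h6]
  have hT' := hT.ne'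
  generalize φ x + ε = T at *
  generalize T ^ (al / 2) = Θ
  generalize ‖x‖ ^ (-((d : ℝ) - 2) / 2) = R
  field_simp
  ring

theorem test_psi (h : Ab u φ Y al del) (hε : 0 < ε) (hk : Cut k) : Test u (psi φ al ε k) := by
  have hp := h.cone.toPreCone
  obtain ⟨a, b, ha, hab⟩ := hk.supp
  refine ⟨fun x hx => ?_, ?_, fun x hx => ?_, ⟨a, b, ha, fun x _ hr => ?_⟩⟩
  · have hx0 := pc_ne hp hx
    have hT : 0 < φ x + ε := add_pos_of_nonneg_of_pos (h.nn x hx) hε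
    have hn : ContDiffAt ℝ 1 (fun y : E d => ‖y‖) x := contDiffAt_norm ℝ hx0
    exact ((hk.sm.contDiffAt.comp x hn).mul
      (hn.rpow_const_of_ne (norm_ne_zero_iff.2 hx0))).mul
      (((h.sφ x hx).add contDiffAt_const).rpow_const_of_ne hT.ne')
  · obtain ⟨C, hC⟩ := h.bφ
    obtain ⟨L, hL⟩ := hk.bd
    refine ⟨1 + (b ^ 2 * (a ^ d)⁻¹ * (C + ε) ^ al + (a ^ d)⁻¹ * (C + ε) ^ al *
      ((L + |((d : ℝ) - 2) / 2|) ^ 2 + (al / 2 * C / ε) ^ 2)), fun x hx => ?_⟩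
    have hx0 := pc_ne hp hx
    have hr : 0 < ‖x‖ := norm_pos_iff.2 hx0
    have hφ0 := h.nn x hx
    have hT : 0 < φ x + ε := add_pos_of_nonneg_of_pos hφ0 hε
    have hφ : DifferentiableAt ℝ φ x := (h.sφ x hx).differentiableAt one_ne_zero
    have e1 := psi_sq (k := k) (al := al) hx0 hT
    have e2 := norm_fderiv_psi (al := al) hk hx0 hφ (hom0_fderiv h.hom hφ) hT
    obtain ⟨hC1, hC2⟩ := hC x hx
    have hC3 : φ x ≤ C := le_trans (le_abs_self _) hC1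
    have hC0 : 0 ≤ C := le_trans hφ0 hC3
    have hP0 : 0 ≤ (C + ε) ^ al := Real.rpow_nonneg (by linarith) al
    have hM1 : 0 ≤ b ^ 2 * (a ^ d)⁻¹ * (C + ε) ^ al := by positivity
    have hM2 : 0 ≤ (a ^ d)⁻¹ * (C + ε) ^ al *
        ((L + |((d : ℝ) - 2) / 2|) ^ 2 + (al / 2 * C / ε) ^ 2) := by positivity
    have key : psi φ al ε k x ^ 2 ≤ b ^ 2 * (a ^ d)⁻¹ * (C + ε) ^ al ∧
        ‖fderiv ℝ (psi φ al ε k) x‖ ^ 2 ≤ (a ^ d)⁻¹ * (C + ε) ^ al *
          ((L + |((d : ℝ) - 2) / 2|) ^ 2 + (al / 2 * C / ε) ^ 2) := by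
      by_cases hk0 : k ‖x‖ = 0
      · rw [e1, e2, hk.deriv_zero hk0, hk0]
        constructor
        · refine le_trans (le_of_eq ?_) hM1
          ring
        · refine le_trans (le_of_eq ?_) hM2
          ring
      · have har : a < ‖x‖ := by
          by_contra hn
          exact hk0 (hab _ (Or.inl (not_lt.1 hn)))
        have hrb : ‖x‖ < b := by
          by_contra hn
          exact hk0 (hab _ (Or.inr (not_lt.1 hn)))
        have hk1 : k ‖x‖ ^ 2 ≤ 1 := pow_le_one₀ (hk.nn _) (hk.le _)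
        have hi : (‖x‖ ^ d)⁻¹ ≤ (a ^ d)⁻¹ :=
          inv_anti₀ (by positivity) (pow_le_pow_left₀ ha.le har.le d)
        have hb2 : ‖x‖ ^ 2 ≤ b ^ 2 := pow_le_pow_left₀ hr.le hrb.le 2
        have hT1 : (φ x + ε) ^ al ≤ (C + ε) ^ al :=
          Real.rpow_le_rpow hT.le (by linarith) h.al_pos.le
        have hT0 : 0 ≤ (φ x + ε) ^ al := Real.rpow_nonneg hT.le al
        have hw : ‖wv φ al ε x‖ ≤ al / 2 * C / ε := by
          have hal := h.al_pos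
          rw [wv, norm_smul, Real.norm_eq_abs, abs_of_nonneg (by positivity), norm_grad]
          have e : al / 2 * ‖x‖ / (φ x + ε) * ‖fderiv ℝ φ x‖ =
              al / 2 * (‖x‖ * ‖fderiv ℝ φ x‖) / (φ x + ε) := by ring
          rw [e]
          exact div_le_div₀ (by positivity) (mul_le_mul_of_nonneg_left hC2 (by positivity)) hε
            (by linarith)
        have hw2 : k ‖x‖ ^ 2 * ‖wv φ al ε x‖ ^ 2 ≤ (al / 2 * C / ε) ^ 2 :=
          le_trans (mul_le_of_le_one_left (by positivity) hk1)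
            (pow_le_pow_left₀ (norm_nonneg _) hw 2)
        have hq : |‖x‖ * deriv k ‖x‖ - ((d : ℝ) - 2) / 2 * k ‖x‖| ≤ L + |((d : ℝ) - 2) / 2| := by
          refine le_trans (abs_sub _ _) (add_le_add (hL _).2 ?_)
          rw [abs_mul, abs_of_nonneg (hk.nn _)]
          exact mul_le_of_le_one_right (abs_nonneg _) (hk.le _)
        have hq2 : (‖x‖ * deriv k ‖x‖ - ((d : ℝ) - 2) / 2 * k ‖x‖) ^ 2 ≤
            (L + |((d : ℝ) - 2) / 2|) ^ 2 := by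
          rw [← sq_abs]
          exact pow_le_pow_left₀ (abs_nonneg _) hq 2
        rw [e1, e2]
        constructor
        · refine mul_le_mul ?_ hT1 hT0 (by positivity)
          refine le_trans (mul_le_of_le_one_left (by positivity) hk1) ?_
          exact mul_le_mul hb2 hi (by positivity) (by positivity)
        · refine mul_le_mul (mul_le_mul hi hT1 hT0 (by positivity)) (add_le_add hq2 hw2)
            (by positivity) (by positivity)
    constructor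
    · exact pt1_abs (le_trans key.1 (le_add_of_nonneg_right hM2))
    · exact le_trans (le_abs_self _) (pt1_abs (le_trans key.2 (le_add_of_nonneg_left hM1)))
  · have hT : 0 < φ x + ε := add_pos_of_nonneg_of_pos (h.nn x hx) hε
    exact mul_nonneg (mul_nonneg (hk.nn _) (Real.rpow_nonneg (norm_nonneg _) _))
      (Real.rpow_nonneg hT.le _)
  · unfold psi
    rw [hab _ hr, zero_mul, zero_mul]

theorem test_cut (h : PreCone u) (hk : Cut k) : Test u fun x => k ‖x‖ ^ 2 := by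
  obtain ⟨a, b, ha, hab⟩ := hk.supp
  refine ⟨fun x hx => ?_, ?_, fun x _ => sq_nonneg _, ⟨a, b, ha, fun x _ hr => ?_⟩⟩
  · have hn : ContDiffAt ℝ 1 (fun y : E d => ‖y‖) x := contDiffAt_norm ℝ (pc_ne h hx)
    exact (hk.sm.contDiffAt.comp x hn).pow 2
  · obtain ⟨L, hL⟩ := hk.bd
    have hL0 : 0 ≤ L := le_trans (abs_nonneg _) (hL 0).1
    refine ⟨1 + 2 * L, fun x hx => ⟨?_, ?_⟩⟩
    · rw [abs_of_nonneg (sq_nonneg _)]
      have hk1 : k ‖x‖ ^ 2 ≤ 1 := pow_le_one₀ (hk.nn _) (hk.le _)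
      linarith
    · have hx0 := pc_ne h hx
      have hr : 0 < ‖x‖ := norm_pos_iff.2 hx0
      have h1 : HasDerivAt (fun s => k s ^ 2) (2 * k ‖x‖ * deriv k ‖x‖) ‖x‖ := by
        have h2 := (hk.hasDerivAt ‖x‖).fun_pow 2
        simpa using h2
      rw [(hasFDerivAt_rad hx0 h1).fderiv, norm_smul, innerSL_apply_norm, Real.norm_eq_abs,
        abs_div, abs_of_pos hr, div_mul_cancel₀ _ hr.ne', abs_mul, abs_mul, abs_two,
        abs_of_nonneg (hk.nn _)]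
      have h3 : k ‖x‖ * |deriv k ‖x‖| ≤ L :=
        le_trans (mul_le_of_le_one_left (abs_nonneg _) (hk.le _)) (hL _).1
      linarith
  · rw [hab _ hr]
    norm_num

end Vale.Agent.P098.SE
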