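import Vale.Agent.P098.S1.E.Pt1

/-!
P098 S1/E/Pt2 (TASK): the divergence of the field and the pointwise inequality.  Prefix helper names by `pt2_`.
`dvg_zed`: `dvg_smul`, `hasFDerivAt_rad` for `s ↦ k s ^ 2 * s ^ (1 - d)`, `HasFDerivAt.rpow_const`; `r ^ (1 - d) = r * (r ^ d)⁻¹`, `Th ^ (al - 1 - 1) = Th ^ (al - 1) / Th`, `inner_grad`.
`pointwise`: `h.key` with `w = wv` (`⟪w, x⟫ = 0` by `hom0_fderiv`), `r * fderiv φ x w = (2 / al) * Th * ‖w‖²`, `(2/al - 1) * (Th - φ) * ‖w‖² ≥ 0`, `Th ^ al = Th ^ (al - 1) * Th`.  So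
`dvg zed - ‖fderiv psi‖² ≥ (r^d)⁻¹ * (k² * gain + Th^(al-1) * 2 k (r k') ⟪Y,x⟫/r - Th^al * ((r k')² - (d-2) k (r k')))`; bound the last two terms with `0 ≤ k ≤ 1`, `|⟪Y,x⟫/r| ≤ C`, `Th^(al-1) ≤ ε^(al-1)` (`Real.rpow_le_rpow_of_nonpos`), `Th^al ≤ (C+ε)^al`.
Do the final step as a lemma on real numbers.
-/

open MeasureTheory Filter Topology Set Metric
open scoped ContDiff RealInnerProductSpace NNReal

set_option maxSynthPendingDepth 3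

noncomputable section

namespace Vale.Agent.P098.SE

variable {d : ℕ}

variable {u φ : E d → ℝ} {Y : E d → E d} {al del ε : ℝ} {k : ℝ → ℝ} {x : E d}

theorem sm_zed (h : Ab u φ Y al del) (hε : 0 < ε) (hk : Cut k) (hx : 0 < u x) :
    ContDiffAt ℝ 1 (zed φ Y al ε k) x := by
  have hx0 := pc_ne h.cone.toPreCone hx
  have hn : ContDiffAt ℝ 1 (fun y : E d => ‖y‖) x := contDiffAt_norm ℝ hx0
  have hT : 0 < φ x + ε := add_pos_of_nonneg_of_pos (h.nn x hx) hε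
  exact ((((hk.sm.contDiffAt.comp x hn).pow 2).mul
    (hn.rpow_const_of_ne (norm_ne_zero_iff.2 hx0))).mul
    (((h.sφ x hx).add contDiffAt_const).rpow_const_of_ne hT.ne')).smul (h.sY x hx)

theorem dvg_zed (hk : Cut k) (hal : al ≠ 0) (hx : x ≠ 0) (hφ : DifferentiableAt ℝ φ x)
    (hY : DifferentiableAt ℝ Y x) (hT : 0 < φ x + ε) :
    dvg (zed φ Y al ε k) x = (‖x‖ ^ d)⁻¹ * (φ x + ε) ^ (al - 1) *
      (k ‖x‖ ^ 2 * (‖x‖ * dvg Y x - ((d : ℝ) - 1) * (⟪Y x, x⟫ / ‖x‖) +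
          (2 - 2 / al) * ⟪wv φ al ε x, Y x⟫) +
        2 * k ‖x‖ * (‖x‖ * deriv k ‖x‖) * (⟪Y x, x⟫ / ‖x‖)) := by
  have r0 : 0 < ‖x‖ := norm_pos_iff.2 hx
  have h1 := hasFDerivAt_rad hx (((hk.hasDerivAt ‖x‖).fun_pow 2).fun_mul
    (Real.hasDerivAt_rpow_const (p := 1 - (d : ℝ)) (Or.inl r0.ne')))
  have h2 := (hφ.hasFDerivAt.add_const ε).rpow_const (p := al - 1) (Or.inl hT.ne')
  have h3 := h1.fun_mul h2
  have e1 : ‖x‖ ^ (1 - (d : ℝ)) = ‖x‖ * (‖x‖ ^ d)⁻¹ := by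
    rw [Real.rpow_sub r0, Real.rpow_one, Real.rpow_natCast, div_eq_mul_inv]
  have e2 : ‖x‖ ^ (1 - (d : ℝ) - 1) = (‖x‖ ^ d)⁻¹ := by
    rw [show 1 - (d : ℝ) - 1 = -(d : ℝ) by ring, Real.rpow_neg r0.le, Real.rpow_natCast]
  have e3 : (φ x + ε) ^ (al - 1 - 1) = (φ x + ε) ^ (al - 1) / (φ x + ε) := Real.rpow_sub_one hT.ne' _
  have h4 := dvg_smul h3.differentiableAt hY
  rw [h3.fderiv] at h4
  refine h4.trans ?_
  simp only [wv, inner_smul_left, inner_grad, ContinuousLinearMap.add_apply,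
    ContinuousLinearMap.smul_apply, innerSL_apply_apply, smul_eq_mul, e1, e2, e3,
    real_inner_comm x (Y x), conj_trivial]
  field_simp
  ring

theorem pt2_real {R P T φ ε k κ q D W μ del c C E M : ℝ} (hR : 0 ≤ R) (hP : 0 ≤ P) (hE : P ≤ E)
    (hM : P * T ≤ M) (hT : 0 ≤ T) (e : T = φ + ε) (hε : 0 ≤ ε) (k0 : 0 ≤ k) (k1 : k ≤ 1)
    (hq : |q| ≤ C) (hW : 0 ≤ W) (hc : 0 ≤ c)
    (key : (μ ^ 2 + del) * φ ≤ D - (c + 1) * T * W + c * φ * W) :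
    R * k ^ 2 * (P * (del * φ - μ ^ 2 * ε)) - (2 * C * E + 2 * |μ| * M + M) * (R * (|κ| + κ ^ 2)) ≤
      R * P * (k ^ 2 * D + 2 * k * κ * q) - R * (P * T) * ((κ - μ * k) ^ 2 + k ^ 2 * W) := by
  have PT : 0 ≤ P * T := mul_nonneg hP hT
  have M0 : 0 ≤ M := PT.trans hM
  have C0 : 0 ≤ C := (abs_nonneg q).trans hq
  have E0 : 0 ≤ E := hP.trans hE
  have h1 := mul_le_mul_of_nonneg_left key (show 0 ≤ k ^ 2 * P by positivity)
  have h2 : 0 ≤ k ^ 2 * P * c * ε * W := by positivity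
  have h3 : |P * k * κ * q| ≤ E * 1 * |κ| * C := by
    rw [abs_mul, abs_mul, abs_mul, abs_of_nonneg hP, abs_of_nonneg k0]
    gcongr
  have h4 : P * T * κ ^ 2 ≤ M * κ ^ 2 := mul_le_mul_of_nonneg_right hM (sq_nonneg κ)
  have h5 : |P * T * k * μ * κ| ≤ M * 1 * |μ| * |κ| := by
    rw [abs_mul, abs_mul, abs_mul, abs_of_nonneg PT, abs_of_nonneg k0]
    gcongr
  have h6 : 0 ≤ (2 * C * E + 2 * |μ| * M) * κ ^ 2 := by positivity
  have h7 : 0 ≤ M * |κ| := by positivity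
  have h8 : k ^ 2 * (P * (del * φ - μ ^ 2 * ε)) - (2 * C * E + 2 * |μ| * M + M) * (|κ| + κ ^ 2) ≤
      P * (k ^ 2 * D + 2 * k * κ * q) - (P * T) * ((κ - μ * k) ^ 2 + k ^ 2 * W) := by
    subst e
    linear_combination h1 + h2 + 2 * (abs_le.1 h3).1 + h4 + 2 * (abs_le.1 h5).1 + h6 + h7
  linear_combination mul_le_mul_of_nonneg_left h8 hR

theorem pointwise (h : Ab u φ Y al del) (hε : 0 < ε) : ∃ K : ℝ, ∀ k, Cut k → ∀ x, 0 < u x →
    w1 d k ‖x‖ * gain φ al del ε x - K * w2 d k ‖x‖ ≤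
      dvg (zed φ Y al ε k) x - ‖fderiv ℝ (psi φ al ε k) x‖ ^ 2 := by
  obtain ⟨C, hC⟩ := h.bφ
  obtain ⟨C', hC'⟩ := h.bY
  refine ⟨2 * C' * ε ^ (al - 1) + 2 * |((d : ℝ) - 2) / 2| * (C + ε) ^ al + (C + ε) ^ al,
    fun k hk x hx => ?_⟩
  have hx0 := pc_ne h.cone.toPreCone hx
  have r0 : 0 < ‖x‖ := norm_pos_iff.2 hx0
  have hT : 0 < φ x + ε := add_pos_of_nonneg_of_pos (h.nn x hx) hε
  have hφ := (h.sφ x hx).differentiableAt one_ne_zero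
  have h0 := hom0_fderiv h.hom hφ
  have al0 := h.al_pos
  have key := h.key x hx (wv φ al ε x) (by
    rw [wv, inner_smul_left, inner_grad, h0, mul_zero])
  have e1 : ‖x‖ * fderiv ℝ φ x (wv φ al ε x) =
      (2 / al - 1 + 1) * (φ x + ε) * ‖wv φ al ε x‖ ^ 2 := by
    rw [← inner_grad, ← real_inner_self_eq_norm_sq]
    simp only [wv, inner_smul_left, inner_smul_right, conj_trivial]
    field_simp
    ring
  have e2 : (φ x + ε) ^ al = (φ x + ε) ^ (al - 1) * (φ x + ε) := by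
    rw [Real.rpow_sub_one hT.ne', div_mul_cancel₀ _ hT.ne']
  have e3 : ((d : ℝ) - 2) ^ 2 / 4 = (((d : ℝ) - 2) / 2) ^ 2 := by ring
  rw [e1, e3] at key
  rw [dvg_zed hk al0.ne' hx0 hφ ((h.sY x hx).differentiableAt one_ne_zero) hT,
    norm_fderiv_psi hk hx0 hφ h0 hT, e2, w1, w2, gain, e3]
  refine pt2_real (by positivity) (by positivity)
    (Real.rpow_le_rpow_of_nonpos hε (by linarith [h.nn x hx]) (by linarith [h.al_lt])) ?_ hT.le rfl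
    hε.le (hk.nn _) (hk.le _) ?_ (sq_nonneg _) ?_ key
  · rw [← e2]
    exact Real.rpow_le_rpow hT.le (by linarith [(abs_le.1 (hC x hx).1).2]) al0.le
  · rw [abs_div, abs_of_pos r0, div_le_iff₀ r0]
    exact (abs_real_inner_le_norm _ _).trans (mul_le_mul_of_nonneg_right (hC' x hx) r0.le)
  · rw [sub_nonneg, le_div_iff₀ al0]
    linarith [h.al_lt]

end Vale.Agent.P098.SE
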